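import Vale.Agent.P271.S.Defs

/-! P271 S/Reg: the Nullstellensatz on the charts, and the dictionary between the points of a chart
and the local rings of the statement. -/

open Set MvPolynomial

noncomputable section

namespace Vale.Agent.P271

theorem exists_pt_of_max {B : Type} [CommRing B] [Algebra ℂ B] [Algebra.FiniteType ℂ B]
    (J : Ideal B) [J.IsMaximal] : ∃ φ : B →ₐ[ℂ] ℂ, ∀ b, φ b = 0 ↔ b ∈ J := by
  let := Ideal.Quotient.field J
  have := finite_of_finite_type_of_isJacobsonRing ℂ (B ⧸ J)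
  let e := AlgEquiv.ofBijective (Algebra.ofId ℂ (B ⧸ J))
    IsAlgClosed.algebraMap_bijective_of_isIntegral
  refine ⟨(e.symm : (B ⧸ J) →ₐ[ℂ] ℂ).comp (Ideal.Quotient.mkₐ ℂ J), fun b => ?_⟩
  simp [Ideal.Quotient.eq_zero_iff_mem]

theorem reg_rad {B : Type} [CommRing B] [Algebra ℂ B] [Algebra.FiniteType ℂ B] (I : Ideal B) {g : B}
    (h : ∀ φ : B →ₐ[ℂ] ℂ, (∀ b ∈ I, φ b = 0) → φ g = 0) : ∃ m, g ^ m ∈ I := by
  have : IsJacobsonRing B := isJacobsonRing_of_finiteType (A := ℂ)
  have h1 : g ∈ I.radical := by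
    rw [I.radical_eq_jacobson, Ideal.jacobson, Ideal.mem_sInf]
    rintro J ⟨hI, hJ⟩
    obtain ⟨φ, hφ⟩ := exists_pt_of_max J
    exact (hφ g).1 (h φ fun b hb => (hφ b).2 (hI hb))
  exact h1

theorem exists_pt_of_ne_top {B : Type} [CommRing B] [Algebra ℂ B] [Algebra.FiniteType ℂ B]
    {I : Ideal B} (hI : I ≠ ⊤) : ∃ φ : B →ₐ[ℂ] ℂ, ∀ b ∈ I, φ b = 0 := by
  obtain ⟨J, hJ, hle⟩ := I.exists_le_maximal hI
  obtain ⟨φ, hφ⟩ := exists_pt_of_max J
  exact ⟨φ, fun b hb => (hφ b).2 (hle hb)⟩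

variable {K : Type} [Field K] [Algebra ℂ K] {N : ℕ}

/-- An element which is regular at all points of `g ≠ 0` lies in `B [1 / g]`. -/
theorem reg {B : Subalgebra ℂ K} [Algebra.FiniteType ℂ B] {g : B} {a : K}
    (h : ∀ φ : B →ₐ[ℂ] ℂ, φ g ≠ 0 → ∃ b : B, φ b ≠ 0 ∧ (b : K) * a ∈ B) :
    ∃ m, (g : K) ^ m * a ∈ B := by
  let I : Ideal B :=
    { carrier := {b | (b : K) * a ∈ B}
      add_mem' := fun {b c} hb hc => by
        show ((b : K) + c) * a ∈ B
        rw [add_mul]
        exact B.add_mem hb hc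
      zero_mem' := by
        show (0 : K) * a ∈ B
        rw [zero_mul]
        exact B.zero_mem
      smul_mem' := fun c b hb => by
        show ((c : K) * b) * a ∈ B
        rw [mul_assoc]
        exact B.mul_mem c.2 hb }
  refine reg_rad I fun φ hφ => ?_
  by_contra hg
  obtain ⟨b, hb, hab⟩ := h φ hg
  exact hb (hφ b hab)

theorem reg_one {B : Subalgebra ℂ K} [Algebra.FiniteType ℂ B] {a : K}
    (h : ∀ φ : B →ₐ[ℂ] ℂ, ∃ b : B, φ b ≠ 0 ∧ (b : K) * a ∈ B) : a ∈ B := by
  obtain ⟨m, hm⟩ := reg (g := 1) fun φ _ => h φ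
  simpa using hm

theorem aeval_mul_homog {σ R : Type} [CommRing R] [Algebra ℂ R] {P : MvPolynomial σ ℂ} {d : ℕ}
    (hP : P.IsHomogeneous d) (c : R) (w : σ → R) :
    aeval (fun i => w i * c) P = aeval w P * c ^ d := by
  rw [aeval_def, aeval_def, eval₂_eq, eval₂_eq, Finset.sum_mul]
  refine Finset.sum_congr rfl fun s hs => ?_
  simp only [mul_pow]
  rw [Finset.prod_mul_distrib, Finset.prod_pow_eq_pow_sum, ← hP.degree_eq_sum_deg_support hs,
    mul_assoc]

theorem aeval_div_homog {σ : Type} {P : MvPolynomial σ ℂ} {d : ℕ} (hP : P.IsHomogeneous d) (c : K)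
    (w : σ → K) : aeval (fun i => w i / c) P = aeval w P / c ^ d := by
  simp only [div_eq_mul_inv]
  rw [aeval_mul_homog hP, inv_pow]

theorem eval_div_homog {σ : Type} {P : MvPolynomial σ ℂ} {d : ℕ} (hP : P.IsHomogeneous d) (c : ℂ)
    (w : σ → ℂ) : eval (fun i => w i / c) P = eval w P / c ^ d :=
  aeval_div_homog hP c w

/-- Homogenisation with respect to the variable `l`. -/
theorem exists_homog {σ : Type} (l : σ) (Q : MvPolynomial σ ℂ) :
    ∃ (d : ℕ) (P : MvPolynomial σ ℂ), P.IsHomogeneous d ∧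
      ∀ (R : Type) [CommRing R] [Algebra ℂ R] (w : σ → R), w l = 1 → aeval w P = aeval w Q := by
  induction Q using MvPolynomial.induction_on with
  | C a => exact ⟨0, C a, isHomogeneous_C _ _, fun _ _ _ _ _ => rfl⟩
  | add p q hp hq =>
    obtain ⟨d, P, hP, eP⟩ := hp
    obtain ⟨d', P', hP', eP'⟩ := hq
    refine ⟨d + d', P * X l ^ d' + P' * X l ^ d, (hP.mul (isHomogeneous_X_pow l d')).add
      (add_comm d' d ▸ hP'.mul (isHomogeneous_X_pow l d)), fun R _ _ w hw => ?_⟩
    simp [hw, eP R w hw, eP' R w hw]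
  | mul_X p i hp =>
    obtain ⟨d, P, hP, eP⟩ := hp
    refine ⟨d + 1, P * X i, hP.mul (isHomogeneous_X _ i), fun R _ _ w hw => ?_⟩
    simp [eP R w hw]

variable {t : Fin (N + 1) → K} {l : Fin (N + 1)} {v : Fin (N + 1) → ℂ}

instance chart_ft : Algebra.FiniteType ℂ (chartRing t l) := .adjoin_of_finite (finite_range _)

theorem chart_gen : Algebra.adjoin ℂ (range (chartX t l)) = ⊤ := by
  rw [← Algebra.adjoin_adjoin_coe_preimage]
  refine congrArg _ (Set.ext fun a => ⟨?_, ?_⟩)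
  · rintro ⟨i, rfl⟩
    exact ⟨i, rfl⟩
  · rintro ⟨i, hi⟩
    exact ⟨i, Subtype.ext hi⟩

theorem chart_surj : Function.Surjective (aeval (R := ℂ) (chartX t l)) := by
  rw [← AlgHom.range_eq_top, ← Algebra.adjoin_range_eq_range_aeval, chart_gen]

theorem chartX_self (hl : t l ≠ 0) : chartX t l l = 1 := Subtype.ext (div_self hl)

theorem coe_aeval_chart (P : MvPolynomial (Fin (N + 1)) ℂ) :
    ((aeval (chartX t l) P : chartRing t l) : K) = aeval (fun i => t i / t l) P :=
  comp_aeval_apply (chartX t l) (chartRing t l).val P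

theorem coe_aeval_homog {P : MvPolynomial (Fin (N + 1)) ℂ} {d : ℕ} (hP : P.IsHomogeneous d) :
    ((aeval (chartX t l) P : chartRing t l) : K) = aeval t P / t l ^ d := by
  rw [coe_aeval_chart, aeval_div_homog hP]

theorem map_aeval_chart (φ : chartRing t l →ₐ[ℂ] ℂ) (P : MvPolynomial (Fin (N + 1)) ℂ) :
    φ (aeval (chartX t l) P) = eval (fun i => φ (chartX t l i)) P :=
  comp_aeval_apply (chartX t l) φ P

/-- Every element of the chart ring is a form divided by a power of `t l`. -/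
theorem chart_homog (hl : t l ≠ 0) (a : chartRing t l) :
    ∃ (d : ℕ) (P : MvPolynomial (Fin (N + 1)) ℂ), P.IsHomogeneous d ∧ aeval (chartX t l) P = a := by
  obtain ⟨Q, rfl⟩ := chart_surj a
  obtain ⟨d, P, hP, e⟩ := exists_homog l Q
  exact ⟨d, P, hP, e _ _ (chartX_self hl)⟩

theorem chart_pt_self (hl : t l ≠ 0) (φ : chartRing t l →ₐ[ℂ] ℂ) : φ (chartX t l l) = 1 := by
  rw [chartX_self hl, map_one]

theorem chart_onX (hl : t l ≠ 0) (φ : chartRing t l →ₐ[ℂ] ℂ) :
    OnX t fun i => φ (chartX t l i) := by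
  refine ⟨fun h => one_ne_zero ((chart_pt_self hl φ).symm.trans (congrFun h l)), fun d P hP e => ?_⟩
  have h1 : aeval (chartX t l) P = 0 := Subtype.ext (by rw [coe_aeval_homog hP, e, zero_div]; rfl)
  rw [← map_aeval_chart, h1, map_zero]

theorem OnX.aeval_ne (hv : OnX t v) {P : MvPolynomial (Fin (N + 1)) ℂ} {d : ℕ}
    (hP : P.IsHomogeneous d) (h : eval v P ≠ 0) : aeval t P ≠ 0 := fun e => h (hv.2 d P hP e)

theorem OnX.t_ne (hv : OnX t v) (h : v l ≠ 0) : t l ≠ 0 := by
  simpa using hv.aeval_ne (isHomogeneous_X ℂ l) (by simpa using h)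

theorem OnX.exists_ne (hv : OnX t v) : ∃ l, v l ≠ 0 := Function.ne_iff.1 hv.1

theorem exists_chart_pt (hv : OnX t v) (h : v l ≠ 0) :
    ∃ φ : chartRing t l →ₐ[ℂ] ℂ, ∀ i, φ (chartX t l i) = v i / v l := by
  have hl := hv.t_ne h
  have hk : RingHom.ker (aeval (R := ℂ) (chartX t l)).toRingHom ≤
      RingHom.ker (aeval (R := ℂ) fun i => v i / v l).toRingHom := by
    intro Q hQ
    obtain ⟨d, P, hP, e⟩ := exists_homog l Q
    have h1 : aeval (chartX t l) P = 0 := (e _ _ (chartX_self hl)).trans hQ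
    have h2 := coe_aeval_homog (t := t) (l := l) hP
    rw [h1, eq_comm, ZeroMemClass.coe_zero, div_eq_zero_iff, or_iff_left (pow_ne_zero _ hl)] at h2
    show aeval (fun i => v i / v l) Q = 0
    rw [← e _ _ (div_self h), aeval_div_homog hP, aeval_eq_eval, hv.2 d P hP h2, zero_div]
  refine ⟨AlgHom.liftOfSurjective _ chart_surj _ hk, fun i => ?_⟩
  have h1 := AlgHom.liftOfSurjective_apply _ chart_surj _ hk (X i)
  simpa using h1

theorem locRing_div {c : ℂ} (hc : c ≠ 0) : locRing t (fun i => v i / c) = locRing t v := by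
  refine congrArg (Algebra.adjoin ℂ) (Set.ext fun a => ?_)
  refine exists_congr fun d => exists_congr fun P => exists_congr fun Q => and_congr_right fun _ =>
    and_congr_right fun hQ => and_congr_left fun _ => ?_
  rw [eval_div_homog hQ]
  simp [hc]

theorem div_mem_locRing (hv : OnX t v) {P Q : MvPolynomial (Fin (N + 1)) ℂ} {d : ℕ}
    (hP : P.IsHomogeneous d) (hQ : Q.IsHomogeneous d) (h : eval v Q ≠ 0) :
    aeval t P / aeval t Q ∈ locRing t v :=
  Algebra.subset_adjoin ⟨d, P, Q, hP, hQ, h, div_mul_cancel₀ _ (hv.aeval_ne hQ h)⟩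

theorem t_div_mem (hv : OnX t v) (h : v l ≠ 0) (i : Fin (N + 1)) : t i / t l ∈ locRing t v := by
  simpa using div_mem_locRing hv (isHomogeneous_X ℂ i) (isHomogeneous_X ℂ l) (by simpa using h)

theorem chart_le_locRing (hv : OnX t v) (h : v l ≠ 0) : chartRing t l ≤ locRing t v := by
  refine Algebra.adjoin_le ?_
  rintro _ ⟨i, rfl⟩
  exact t_div_mem hv h i

theorem mem_locRing_iff (hl : t l ≠ 0) (φ : chartRing t l →ₐ[ℂ] ℂ) {a : K} :
    a ∈ locRing t (fun i => φ (chartX t l i)) ↔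
      ∃ b : chartRing t l, φ b ≠ 0 ∧ (b : K) * a ∈ chartRing t l := by
  constructor
  · intro ha
    induction ha using Algebra.adjoin_induction with
    | mem a ha =>
      obtain ⟨d, P, Q, hP, hQ, h, e⟩ := ha
      refine ⟨aeval (chartX t l) Q, by rwa [map_aeval_chart], ?_⟩
      rw [coe_aeval_homog hQ, div_mul_eq_mul_div, mul_comm, e, ← coe_aeval_homog hP]
      exact SetLike.coe_mem _
    | algebraMap c =>
      exact ⟨1, by simp, by simp⟩
    | add a a' _ _ h h' =>
      obtain ⟨b, h1, h2⟩ := h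
      obtain ⟨b', h1', h2'⟩ := h'
      refine ⟨b * b', by rw [map_mul]; exact mul_ne_zero h1 h1', ?_⟩
      have e : ((b * b' : chartRing t l) : K) * (a + a') = b' * (b * a) + b * (b' * a') := by
        push_cast
        ring
      rw [e]
      exact add_mem (mul_mem b'.2 h2) (mul_mem b.2 h2')
    | mul a a' _ _ h h' =>
      obtain ⟨b, h1, h2⟩ := h
      obtain ⟨b', h1', h2'⟩ := h'
      refine ⟨b * b', by rw [map_mul]; exact mul_ne_zero h1 h1', ?_⟩
      have e : ((b * b' : chartRing t l) : K) * (a * a') = (b * a) * (b' * a') := by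
        push_cast
        ring
      rw [e]
      exact mul_mem h2 h2'
  · rintro ⟨b, h1, h2⟩
    have hv := chart_onX hl φ
    have hvl : φ (chartX t l l) ≠ 0 := by rw [chart_pt_self hl]; exact one_ne_zero
    obtain ⟨d, Q, hQ, rfl⟩ := chart_homog hl b
    rw [map_aeval_chart] at h1
    have h3 := div_mem_locRing hv (isHomogeneous_X_pow l d) hQ h1
    have h4 := mul_mem h3 (chart_le_locRing hv hvl h2)
    have h5 := hv.aeval_ne hQ h1
    rw [coe_aeval_homog hQ, map_pow, aeval_X] at h4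
    have e : t l ^ d / aeval t Q * (aeval t Q / t l ^ d * a) = a := by field_simp
    rwa [e] at h4

/-- An element which is regular at all points of the chart where the form `Q` does not vanish. -/
theorem reg_chart (hl : t l ≠ 0) {Q : MvPolynomial (Fin (N + 1)) ℂ} {d : ℕ} (hQ : Q.IsHomogeneous d)
    {a : K} (h : ∀ v, OnX t v → v l ≠ 0 → eval v Q ≠ 0 → a ∈ locRing t v) :
    ∃ m, (aeval t Q / t l ^ d) ^ m * a ∈ chartRing t l := by
  rw [← coe_aeval_homog hQ]
  refine reg fun φ hφ => (mem_locRing_iff hl φ).1 (h _ (chart_onX hl φ) ?_ ?_)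
  · rw [chart_pt_self hl]
    exact one_ne_zero
  · rwa [← map_aeval_chart]

theorem reg_chart_one (hl : t l ≠ 0) {a : K} (h : ∀ v, OnX t v → v l ≠ 0 → a ∈ locRing t v) :
    a ∈ chartRing t l := by
  refine reg_one fun φ => (mem_locRing_iff hl φ).1 (h _ (chart_onX hl φ) ?_)
  rw [chart_pt_self hl]
  exact one_ne_zero

theorem hyp_mem1 {e u : K} {p : ℕ} (he : e ≠ 0)
    (h : Submodule.span (locRing t v) {e ^ p} =
      Submodule.span (locRing t v) (Set.range fun j => u * t j)) (j : Fin (N + 1)) :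
    u * t j / e ^ p ∈ locRing t v := by
  have h1 : u * t j ∈ Submodule.span (locRing t v) {e ^ p} := h ▸ Submodule.subset_span ⟨j, rfl⟩
  obtain ⟨c, hc⟩ := Submodule.mem_span_singleton.1 h1
  rw [← hc, Subalgebra.smul_def, smul_eq_mul, mul_div_assoc, div_self (pow_ne_zero _ he), mul_one]
  exact c.2

theorem hyp_mem2 {e u : K} {p : ℕ} (hv : OnX t v) (hl : v l ≠ 0) (hu : u ≠ 0)
    (h : Submodule.span (locRing t v) {e ^ p} =
      Submodule.span (locRing t v) (Set.range fun j => u * t j)) :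
    e ^ p / (u * t l) ∈ locRing t v := by
  have h1 : e ^ p ∈ Submodule.span (locRing t v) (Set.range fun j => u * t j) :=
    h ▸ Submodule.mem_span_singleton_self _
  obtain ⟨c, hc⟩ := (Submodule.mem_span_range_iff_exists_fun _).1 h1
  rw [← hc, Finset.sum_div]
  refine sum_mem fun j _ => ?_
  rw [Subalgebra.smul_def, smul_eq_mul, mul_div_assoc, mul_div_mul_left _ _ hu]
  exact mul_mem (c j).2 (t_div_mem hv hl j)

end Vale.Agent.P271
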