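import Vale.Agent.P271.A.GAGA

/-! P271 S/Est: estimates.

Plan. `rat_of_L2`: `gaga` for `F = f * ev b ^ m` and `q = k + m`, where `b ^ (m * (p - 1)) * c ^ m ∈ Vk k`
(`exists_mem_Vk`, `norm_le_of_mem_Vk`): with `α = ‖ev b ^ m‖ ^ 2 / nrm ^ q`, `β = ‖ev b / ev c‖ ^ 2 / nrm` one has
`α ^ p ≤ C * β ^ m` since `1 ≤ nrm`; `rpow_bound`; `lintegral_const_mul'`. Auxiliary names start with `est_`. -/

open MeasureTheory Set Filter Topology MvPolynomial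
open scoped ENNReal

set_option linter.unusedSectionVars false

noncomputable section

namespace Vale.Agent.P271

theorem rpow_bound {α β C : ℝ} (hα : 0 ≤ α) (hβ : 0 ≤ β) (hC : 0 ≤ C) {m p : ℕ} (hp : 1 ≤ p)
    (h : α ^ p ≤ C * β ^ m) : α ≤ C ^ ((1 : ℝ) / p) * β ^ ((m : ℝ) / p) := by
  have hp0 : (p : ℝ) ≠ 0 := Nat.cast_ne_zero.2 (by omega)
  have h1 : (α ^ p) ^ ((1 : ℝ) / p) ≤ (C * β ^ m) ^ ((1 : ℝ) / p) :=
    Real.rpow_le_rpow (pow_nonneg hα _) h (by positivity)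
  rw [← Real.rpow_natCast, ← Real.rpow_mul hα, mul_one_div_cancel hp0, Real.rpow_one,
    Real.mul_rpow hC (pow_nonneg hβ _), ← Real.rpow_natCast β, ← Real.rpow_mul hβ,
    mul_one_div] at h1
  exact h1

theorem est_key {B D R C : ℝ} (hB : 0 ≤ B) (hD : 0 < D) (hR : 1 ≤ R) (hC : 0 ≤ C) {m p k : ℕ}
    (hp : 1 ≤ p) (h : B ^ (m * (p - 1)) * D ^ m ≤ C * R ^ k) :
    (B ^ m / R ^ (k + m)) ^ p ≤ C * (B / D / R) ^ m := by
  obtain ⟨r, rfl⟩ := Nat.exists_eq_add_of_le' hp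
  rw [Nat.add_sub_cancel] at h
  have hR0 : 0 < R := one_pos.trans_le hR
  have h1 : R ^ (k + m) ≤ (R ^ (k + m)) ^ (r + 1) :=
    le_self_pow₀ (one_le_pow₀ hR) (Nat.succ_ne_zero r)
  rw [div_pow, div_pow, div_pow, div_div, ← mul_div_assoc,
    div_le_div_iff₀ (by positivity) (by positivity)]
  calc (B ^ m) ^ (r + 1) * (D ^ m * R ^ m) = B ^ (m * r) * D ^ m * (B ^ m * R ^ m) := by ring
    _ ≤ C * R ^ k * (B ^ m * R ^ m) := mul_le_mul_of_nonneg_right h (by positivity)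
    _ = C * B ^ m * R ^ (k + m) := by ring
    _ ≤ C * B ^ m * (R ^ (k + m)) ^ (r + 1) := mul_le_mul_of_nonneg_left h1 (by positivity)

variable {n M : ℕ} {A : Type} [CommRing A] [IsDomain A] [Algebra ℂ A]
  {Ω : Type} [TopologicalSpace Ω] [T2Space Ω] [SecondCountableTopology Ω] [MeasurableSpace Ω]
  [BorelSpace Ω] (X : Aff n M A Ω)

theorem Aff.continuous_nrm : Continuous X.nrm :=
  continuous_const.add (continuous_finsetSum _ fun i _ => (X.continuous_ev (X.x i)).norm.pow 2)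

theorem est_one_le (z : Ω) : 1 ≤ X.nrm z :=
  le_add_of_nonneg_right (Finset.sum_nonneg fun _ _ => sq_nonneg _)

theorem Aff.rat_of_L2 {b c : A} (hb : b ≠ 0) (hc : ∀ z, X.ev z c ≠ 0) {m p : ℕ} (hp : 1 ≤ p)
    {f : Ω → ℂ} (hf : ∀ z, X.toEtDom.HolAt f z)
    (h2 : ∫⁻ z, ENNReal.ofReal (‖f z‖ ^ 2 *
      (‖X.ev z b / X.ev z c‖ ^ 2 / X.nrm z) ^ ((m : ℝ) / p)) ∂X.ν ≠ ⊤) :
    ∃ a₁ b₁ : A, b₁ ≠ 0 ∧ ∀ z, f z * X.ev z b₁ = X.ev z a₁ := by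
  obtain ⟨k, hk⟩ := exists_mem_Vk X.x X.gen (b ^ (m * (p - 1)) * c ^ m)
  obtain ⟨C, hC, hb'⟩ := norm_le_of_mem_Vk X.x hk
  have hF : ∀ z, X.toEtDom.HolAt (fun w => f w * X.ev w (b ^ m)) z := fun z =>
    (hf z).mul (X.hol _ z)
  have key : ∀ z, ‖f z * X.ev z (b ^ m)‖ ^ 2 / X.nrm z ^ ((k + m : ℕ) : ℝ) ≤
      C ^ ((1 : ℝ) / p) * (‖f z‖ ^ 2 *
        (‖X.ev z b / X.ev z c‖ ^ 2 / X.nrm z) ^ ((m : ℝ) / p)) := fun z => by
    have h1 := hb' (X.ev z)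
    have hR := est_one_le X z
    have hR0 : 0 < X.nrm z := one_pos.trans_le hR
    rw [map_mul, map_pow, map_pow, norm_mul, norm_pow, norm_pow, mul_pow, ← pow_mul, ← pow_mul,
      mul_comm _ 2, mul_comm m 2, pow_mul _ 2, pow_mul _ 2] at h1
    have h3 := est_key (sq_nonneg ‖X.ev z b‖) (pow_pos (norm_pos_iff.2 (hc z)) 2) hR hC.le hp h1
    have h4 := rpow_bound (by positivity) (by positivity) hC.le hp h3
    rw [Real.rpow_natCast, norm_mul, mul_pow, map_pow, norm_pow, ← pow_mul, mul_comm m 2,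
      pow_mul _ 2, norm_div, div_pow, mul_div_assoc, mul_left_comm]
    exact mul_le_mul_of_nonneg_left h4 (sq_nonneg _)
  have hfin : ∫⁻ z, ENNReal.ofReal (‖f z * X.ev z (b ^ m)‖ ^ 2 / X.nrm z ^ ((k + m : ℕ) : ℝ))
      ∂X.ν ≠ ⊤ := by
    refine ne_top_of_le_ne_top (ENNReal.mul_ne_top (ENNReal.ofReal_ne_top
      (r := C ^ ((1 : ℝ) / p))) h2) ?_
    rw [← lintegral_const_mul' _ _ ENNReal.ofReal_ne_top]
    refine lintegral_mono fun z => ?_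
    rw [← ENNReal.ofReal_mul (Real.rpow_nonneg hC.le _)]
    exact ENNReal.ofReal_le_ofReal (key z)
  obtain ⟨a₁, b₁, h0, h⟩ := X.gaga hF hfin
  refine ⟨a₁, b ^ m * b₁, mul_ne_zero (pow_ne_zero _ hb) h0, fun z => ?_⟩
  rw [map_mul, ← mul_assoc]
  exact h z

end Vale.Agent.P271
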