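import Vale.Agent.P271.S.SD
import Vale.Agent.P271.A.Krull
import Vale.Agent.P271.H.Remov

/-! P271 S/Rep: represented functions.

Plan. `rep_div`: `b = b₁ c₂`, `c = b₂ c₁`. `rep_det`: `Matrix.det_apply'`, `sum_mem`, `prod_mem` in the subring for
the matrix of pairs, `RingHom.map_det` for the projections and `Pi.evalRingHom`. `rep_reg`: with `r * ev c = ev b`
where `Q ≠ 0`, apply `removable` on `univ` to `ev (Q * c)` and `ev b / ev c` (replace `N` by its interior; the set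
`{ev (Q * c) ≠ 0}` is open, `setLIntegral_congr_fun`, `lintegral_mono_set`), then `krull` with `b * (Q * c)` and
`c * (Q * c)`. `loc_L2`: `N = {w | B w < B z + 1}`. Auxiliary names start with `rep_`. -/

open MeasureTheory Set Filter Topology MvPolynomial
open scoped ENNReal

set_option linter.unusedSectionVars false

noncomputable section

namespace Vale.Agent.P271

variable {K : Type} [Field K] [Algebra ℂ K] {A : Subalgebra ℂ K} {n M : ℕ}
  {Ω : Type} [TopologicalSpace Ω] [T2Space Ω] [SecondCountableTopology Ω] [MeasurableSpace Ω]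
  [BorelSpace Ω] (X : Aff n M A Ω) {Q : A}

theorem Aff.rep_ev (a : A) : ((fun z => X.ev z a), (a : K)) ∈ X.Rep Q :=
  ⟨a, 1, one_ne_zero, mul_one _, fun z _ => by simp⟩

theorem Aff.rep_div {p q : (Ω → ℂ) × K} (hp : p ∈ X.Rep Q) (hq : q ∈ X.Rep Q) (h0 : q.2 ≠ 0)
    {F : Ω → ℂ} (h : ∀ z, X.ev z Q ≠ 0 → F z * q.1 z = p.1 z) : (F, p.2 / q.2) ∈ X.Rep Q := by
  obtain ⟨b, c, h1, h2, h3⟩ := hp
  obtain ⟨b', c', h1', h2', h3'⟩ := hq
  refine ⟨b * c', b' * c, mul_ne_zero (fun e => mul_ne_zero h0 (fun e' => h1' (Subtype.ext e'))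
    (by rw [h2', e]; rfl)) h1, ?_, fun z hz => ?_⟩
  · rw [Subalgebra.coe_mul, Subalgebra.coe_mul, ← h2, ← h2']
    field_simp
  · rw [map_mul, map_mul, ← h3 z hz, ← h3' z hz, ← h z hz]
    ring

theorem Aff.rep_det {F : Fin n → Fin n → Ω → ℂ} {c : Matrix (Fin n) (Fin n) K}
    (h : ∀ i j, (F i j, c i j) ∈ X.Rep Q) :
    ((fun z => (Matrix.of fun i j => F i j z).det), c.det) ∈ X.Rep Q := by
  have h1 : (Matrix.of fun i j => (F i j, c i j)).det ∈ X.Rep Q := by
    rw [Matrix.det_apply']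
    exact sum_mem fun σ _ => mul_mem (intCast_mem _ _) (prod_mem fun i _ => h _ _)
  convert h1 using 1
  refine Prod.ext (funext fun z => ?_) ?_
  · exact (((Pi.evalRingHom (fun _ : Ω => ℂ) z).comp (RingHom.fst _ K)).map_det
      (Matrix.of fun i j => (F i j, c i j))).symm
  · exact ((RingHom.snd (Ω → ℂ) K).map_det (Matrix.of fun i j => (F i j, c i j))).symm

theorem Aff.rep_reg {r : Ω → ℂ} {a : K} (h : (r, a) ∈ X.Rep Q) (hQ : Q ≠ 0)
    (h2 : ∀ z, ∃ N ∈ 𝓝 z,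
      ∫⁻ w in N ∩ {w | X.ev w Q ≠ 0}, ENNReal.ofReal (‖r w‖ ^ 2) ∂X.ν ≠ ⊤) (z : Ω) :
    ∃ b c : A, X.ev z c ≠ 0 ∧ a * c = b := by
  obtain ⟨b, c, hc, e, h1⟩ := h
  have h3 : ∀ w, X.ev w (Q * c) ≠ 0 → X.ev w Q ≠ 0 ∧ X.ev w c ≠ 0 := fun w hw => by
    rwa [map_mul, mul_ne_zero_iff] at hw
  obtain ⟨R, hR, hR'⟩ := EtDom.removable (D := X.toEtDom) isOpen_univ
    (Q := fun w => X.ev w (Q * c)) (r := fun w => X.ev w b / X.ev w c) (fun z _ => X.hol _ z)
    (fun z _ hz => by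
      simpa only [div_eq_mul_inv] using (X.hol b z).mul ((X.hol c z).inv (h3 z hz).2))
    fun z _ => by
      obtain ⟨N, hN, h4⟩ := h2 z
      refine ⟨interior N, interior_mem_nhds.2 hN, ne_top_of_le_ne_top h4 ?_⟩
      rw [setLIntegral_congr_fun (isOpen_interior.inter (isOpen_ne_fun (X.continuous_ev _)
        continuous_const)).measurableSet (g := fun w => ENNReal.ofReal (‖r w‖ ^ 2))
        fun w hw => by
          simp only
          rw [← h1 w (h3 w hw.2).1, mul_div_cancel_right₀ _ (h3 w hw.2).2]]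
      exact lintegral_mono_set (inter_subset_inter interior_subset fun w hw => (h3 w hw).1)
  obtain ⟨s, a', h4, h5, -⟩ := X.krull (hR z trivial) (a := b * (Q * c))
    (mul_ne_zero hc (mul_ne_zero hQ hc)) (Eventually.of_forall fun w => by
      by_cases hw : X.ev w (Q * c) = 0
      · rw [map_mul, map_mul _ b, hw, mul_zero, mul_zero, mul_zero]
      · rw [hR' w trivial hw, map_mul, map_mul _ b, ← mul_assoc, div_mul_cancel₀ _ (h3 w hw).2])
  refine ⟨a', s, h4, mul_right_cancel₀ (fun h => hc (Subtype.ext h) : (c : K) ≠ 0) ?_⟩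
  rw [← mul_assoc s b, ← mul_assoc a' c] at h5
  rw [mul_right_comm, e, mul_comm]
  exact congrArg Subtype.val (mul_right_cancel₀ (mul_ne_zero hQ hc) h5)

theorem loc_L2 (ν : Measure Ω) {W : Set Ω} (hW : IsOpen W) {r T : Ω → ℝ≥0∞}
    (hT : ∫⁻ z in W, T z ∂ν ≠ ⊤) {B : Ω → ℝ} (hB : Continuous B)
    (h : ∀ z ∈ W, r z ≤ ENNReal.ofReal (B z) * T z) (z : Ω) :
    ∃ N ∈ 𝓝 z, ∫⁻ w in N ∩ W, r w ∂ν ≠ ⊤ := by
  have hN : IsOpen {w | B w < B z + 1} := isOpen_lt hB continuous_const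
  refine ⟨_, hN.mem_nhds (lt_add_one (B z)), ne_top_of_le_ne_top
    (ENNReal.mul_ne_top (ENNReal.ofReal_ne_top (r := B z + 1)) hT) ?_⟩
  rw [← lintegral_const_mul' _ _ ENNReal.ofReal_ne_top]
  exact (setLIntegral_mono' (hN.inter hW).measurableSet fun w hw => (h w hw.2).trans
    (mul_le_mul_left (ENNReal.ofReal_le_ofReal hw.1.le) _)).trans
    (lintegral_mono_set inter_subset_right)

end Vale.Agent.P271
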