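import Vale.Agent.P271.S.Diff
import Vale.Agent.P271.S.Rep

/-! P271 S/Trans: change of charts.

Plan. `exists_trans`: `chart_change` for `X.h` gives `h''`; `Q = chartX t l' l * h''` (nonzero since `X.h ≠ 0` by
`ev_h z₀`). For `ev z Q ≠ 0` the point `w i = ev z (chartX t l' i)` is on `X` (`onX_of_pt`), `exists_pt` gives `φ` with
`φ X.h ≠ 0`, `X.surj` gives `ι z` (elsewhere `ι z = z₀`). Continuity by `X.emb.continuousOn_iff` and `continuous_ev`;
injectivity by `X'.emb.injective` and `chartX_self`. `trans_rep`: `chart_change`. `trans_jac`: `frac_diff` on `X'` for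
`a = chartX t l' (σ i)`, `b = chartX t l' l`, `cm i j = ρ j / (h b ^ 2)` (`X'.h ≠ 0`); near a point with `ev Q ≠ 0` the function
`X.π (ι w) i` is `ev a / ev b` (`π_eq`, `d_congr`, `HolAt.congr`); `topF_det`, `rep_div`, `rep_det`.
Auxiliary names start with `trans_`. -/

open MeasureTheory Set Filter Topology MvPolynomial
open scoped ENNReal

set_option linter.unusedSectionVars false

noncomputable section

namespace Vale.Agent.P271

variable {K : Type} [Field K] [Algebra ℂ K] {N : ℕ} {t : Fin (N + 1) → K} {n : ℕ} {l l' : Fin (N + 1)}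
  {Ω : Type} [TopologicalSpace Ω] [T2Space Ω] [SecondCountableTopology Ω] [MeasurableSpace Ω]
  [BorelSpace Ω]
  {Ω' : Type} [TopologicalSpace Ω'] [T2Space Ω'] [SecondCountableTopology Ω'] [MeasurableSpace Ω']
  [BorelSpace Ω']
  (X : Aff n (N + 1) (chartRing t l) Ω) (X' : Aff n (N + 1) (chartRing t l') Ω')

/-- `ι` is the change of charts where `Q` does not vanish. -/
def IsTrans (Q : chartRing t l') (ι : Ω' → Ω) : Prop :=
  ∀ z, X'.ev z Q ≠ 0 → X'.ev z (chartX t l' l) ≠ 0 ∧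
    ∀ i, X.ev (ι z) (chartX t l i) = X'.ev z (chartX t l' i) / X'.ev z (chartX t l' l)

theorem exists_trans (hl : t l ≠ 0) (hl' : t l' ≠ 0) (z₀ : Ω) :
    ∃ (Q : chartRing t l') (ι : Ω' → Ω), Q ≠ 0 ∧ IsTrans X X' Q ι := by
  obtain ⟨d, h', h1, h2⟩ := chart_change hl hl' X.h
  have h3 : (chartX t l' l : K) ≠ 0 := div_ne_zero hl hl'
  have h4 : ∀ z, ∃ w, X'.ev z (chartX t l' l * h') ≠ 0 → X'.ev z (chartX t l' l) ≠ 0 ∧
      ∀ i, X.ev w (chartX t l i) = X'.ev z (chartX t l' i) / X'.ev z (chartX t l' l) := fun z => by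
    by_cases hz : X'.ev z (chartX t l' l * h') = 0
    · exact ⟨z₀, fun h => (h hz).elim⟩
    rw [map_mul, mul_eq_zero, not_or] at hz
    obtain ⟨φ, hφ⟩ := (onX_of_pt hl' (X'.ev z)).exists_pt (l := l) hz.1
    obtain ⟨w, rfl⟩ := X.surj φ fun h => hz.2 (by rw [← h2 φ _ hz.1 hφ, h, zero_mul])
    exact ⟨w, fun _ => ⟨hz.1, hφ⟩⟩
  choose ι hι using h4
  refine ⟨_, ι, mul_ne_zero (fun h => h3 (congrArg Subtype.val h)) fun h => ?_, hι⟩
  rw [h] at h1
  exact X.ev_h z₀ (by
    rw [show X.h = 0 from Subtype.ext ((mul_eq_zero.1 h1).resolve_right (pow_ne_zero _ h3)),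
      map_zero])

variable {X X'} {Q : chartRing t l'} {ι : Ω' → Ω}

theorem IsTrans.continuousOn (h : IsTrans X X' Q ι) (hx : X.x = chartX t l) :
    ContinuousOn ι {z | X'.ev z Q ≠ 0} := by
  refine X.emb.continuousOn_iff.2 (continuousOn_pi.2 fun i => ?_)
  exact (((X'.continuous_ev _).continuousOn).div (X'.continuous_ev _).continuousOn
    fun z hz => (h z hz).1).congr fun z hz => hx ▸ (h z hz).2 i

theorem IsTrans.injOn (h : IsTrans X X' Q ι) (hx' : X'.x = chartX t l') (hl' : t l' ≠ 0) :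
    InjOn ι {z | X'.ev z Q ≠ 0} := fun z hz w hw e => by
  have h1 := fun i => ((h z hz).2 i).symm.trans (e ▸ (h w hw).2 i)
  have h2 := h1 l'
  rw [chartX_self hl', map_one, map_one, one_div, one_div, inv_inj] at h2
  refine X'.emb.injective (funext fun i => ?_)
  rw [hx']
  have h3 := h1 i
  rwa [h2, div_left_inj' (h w hw).1] at h3

theorem IsTrans.rep (h : IsTrans X X' Q ι) (hl : t l ≠ 0) (hl' : t l' ≠ 0) (a : chartRing t l) :
    ((fun z => X.ev (ι z) a), (a : K)) ∈ X'.Rep Q := by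
  obtain ⟨d, a', h1, h2⟩ := chart_change hl hl' a
  exact ⟨a', chartX t l' l ^ d, pow_ne_zero _ fun e => div_ne_zero hl hl' (congrArg Subtype.val e),
    h1, fun z hz => by rw [map_pow]; exact h2 _ _ (h z hz).1 (h z hz).2⟩

theorem IsTrans.trans_ev (h : IsTrans X X' Q ι) (hx : X.x = chartX t l) {z : Ω'}
    (hz : X'.ev z Q ≠ 0) (i : Fin n) : (fun w => X'.ev w (chartX t l' (X.σ i)) /
      X'.ev w (chartX t l' l)) =ᶠ[𝓝 z] fun w => X.π (ι w) i :=
  ((X'.continuous_ev Q).continuousAt.eventually_ne hz).mono fun w hw => by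
    simp only [X.π_eq, hx, (h w hw).2]

theorem IsTrans.hol (h : IsTrans X X' Q ι) (hx : X.x = chartX t l) {z : Ω'} (hz : X'.ev z Q ≠ 0)
    (i : Fin n) : X'.toEtDom.HolAt (fun w => X.π (ι w) i) z := by
  refine EtDom.HolAt.congr ?_ (h.trans_ev hx hz i)
  simpa only [div_eq_mul_inv] using (X'.hol _ z).mul ((X'.hol _ z).inv (h z hz).1)

theorem IsTrans.jac (h : IsTrans X X' Q ι) (hx : X.x = chartX t l) (hl : t l ≠ 0) (hl' : t l' ≠ 0)
    (hd : DRel (X'.x ∘ X'.σ) X'.h) (h0 : X'.h ≠ 0) : ∃ c : K,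
      (topF fun j => (X.x (X.σ j) : K)) = c • (topF fun j => (X'.x (X'.σ j) : K)) ∧
      ((fun z => (Matrix.of fun i j => X'.toEtDom.d j (fun w => X.π (ι w) i) z).det), c) ∈
        X'.Rep Q := by
  have h1 : chartX t l' l ≠ 0 := fun e => div_ne_zero hl hl' (congrArg Subtype.val e)
  have h2 : ((X'.h * chartX t l' l ^ 2 : chartRing t l') : K) ≠ 0 := fun e =>
    mul_ne_zero h0 (pow_ne_zero 2 h1) (Subtype.ext e)
  choose ρ h3 h4 using fun i => X'.frac_diff hd (chartX t l' (X.σ i)) h1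
  refine ⟨(Matrix.of fun i j => (ρ i j : K) / (X'.h * chartX t l' l ^ 2 : chartRing t l')).det,
    topF_det _ fun i => ?_, X'.rep_det fun i j => X'.rep_div (X'.rep_ev (ρ i j))
      (X'.rep_ev (X'.h * chartX t l' l ^ 2)) h2 fun z hz => ?_⟩
  · have e : (X.x (X.σ i) : K) = (chartX t l' (X.σ i) : K) / chartX t l' l := by
      rw [hx]
      exact (div_div_div_cancel_right₀ hl' _ _).symm
    rw [e, ← inv_smul_smul₀ h2 (KaehlerDifferential.D ℂ K _), h3, Finset.smul_sum]
    simp only [smul_smul, div_eq_inv_mul, Matrix.of_apply]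
  · rw [← EtDom.d_congr j (h.trans_ev hx hz i), mul_comm]
    exact h4 i z j (h z hz).1

end Vale.Agent.P271
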