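import Vale.Agent.P271.S.Chart
import Vale.Agent.P271.S.Trans
import Vale.Agent.P271.S.Est
import Vale.Agent.P271.H.CV

/-! P271 S/Glob: the form is regular at every point. -/

open MeasureTheory Set Filter Topology MvPolynomial
open scoped ENNReal

set_option linter.unusedSectionVars false

noncomputable section

namespace Vale.Agent.P271

variable {K : Type} [Field K] [Algebra ℂ K] {N : ℕ} {t : Fin (N + 1) → K} {n : ℕ} {l l' : Fin (N + 1)}
  {Ω : Type} [TopologicalSpace Ω] [T2Space Ω] [SecondCountableTopology Ω] [MeasurableSpace Ω]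
  [BorelSpace Ω]

theorem glob_bound (hl : t l ≠ 0) (hl' : t l' ≠ 0) {φ : chartRing t l →ₐ[ℂ] ℂ}
    {φ' : chartRing t l' →ₐ[ℂ] ℂ} (h0 : φ' (chartX t l' l) ≠ 0)
    (h : ∀ i, φ (chartX t l i) = φ' (chartX t l' i) / φ' (chartX t l' l)) {b c : chartRing t l}
    {α β b' c' : chartRing t l'} (hc : φ c ≠ 0) (hc' : φ' c' ≠ 0) (hβ : φ' β ≠ 0) {m p : ℕ}
    (hp : 1 ≤ p) (e : (c : K) * (α ^ p * c' : chartRing t l') =
      b * (β ^ p * chartX t l' l * b' : chartRing t l')) :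
    ‖(φ' α / φ' β) ^ m‖ ^ 2 ≤
      (((‖φ' (chartX t l' l)‖ ^ 2 + ∑ i, ‖φ' (chartX t l' i)‖ ^ 2) * ‖φ' b' / φ' c'‖ ^ 2) ^ m) ^
        ((1 : ℝ) / p) * (‖φ b / φ c‖ ^ 2 / (1 + ∑ i, ‖φ (chartX t l i)‖ ^ 2)) ^ ((m : ℝ) / p) := by
  have h1 := pt_rel hl hl' h0 h e
  simp only [map_mul, map_pow] at h1
  have h2 : (φ' α / φ' β) ^ p = φ b / φ c * φ' (chartX t l' l) * (φ' b' / φ' c') := by
    rw [div_pow]
    field_simp
    linear_combination h1
  have h3 : ‖φ' (chartX t l' l)‖ ^ 2 + ∑ i, ‖φ' (chartX t l' i)‖ ^ 2 =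
      (1 + ∑ i, ‖φ (chartX t l i)‖ ^ 2) * ‖φ' (chartX t l' l)‖ ^ 2 := by
    have h4 : ‖φ' (chartX t l' l)‖ ≠ 0 := norm_ne_zero_iff.2 h0
    rw [add_mul, one_mul, Finset.sum_mul]
    refine congrArg _ (Finset.sum_congr rfl fun i _ => ?_)
    rw [h i, norm_div, div_pow, div_mul_cancel₀ _ (pow_ne_zero _ h4)]
  refine rpow_bound (by positivity) (by positivity) (by positivity) hp (le_of_eq ?_)
  have h5 : (0 : ℝ) < 1 + ∑ i, ‖φ (chartX t l i)‖ ^ 2 := by positivity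
  rw [← mul_pow, h3, norm_pow, ← pow_mul, ← pow_mul, show m * (2 * p) = p * 2 * m by ring, pow_mul,
    pow_mul, ← norm_pow, h2, norm_mul, norm_mul]
  congr 1
  field_simp

theorem glob (ht : IsFunctionField t) (hs : IsSmoothOfDim t n)
    (X : Aff n (N + 1) (chartRing t l) Ω) (hx : X.x = chartX t l) (hl : t l ≠ 0) (z₀ : Ω)
    {b c : chartRing t l} (hc : ∀ z, X.ev z c ≠ 0) {m p : ℕ} (hp : 1 ≤ p) {f : Ω → ℂ}
    (hf : Continuous f) (h2 : ∫⁻ z, ENNReal.ofReal (‖f z‖ ^ 2 *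
      (‖X.ev z b / X.ev z c‖ ^ 2 / X.nrm z) ^ ((m : ℝ) / p)) ∂X.ν ≠ ⊤)
    {a₁ b₁ : chartRing t l} (hb₁ : b₁ ≠ 0) (hab : ∀ z, f z * X.ev z b₁ = X.ev z a₁) {e e' u : K}
    (he' : e' ≠ 0) (hU : e ^ p * c = b * (u * t l)) {w : Fin (N + 1) → ℂ} (hw : OnX t w)
    (hl' : w l' ≠ 0) (hU' : u * t l' / e' ^ p ∈ locRing t w) :
    (((a₁ : K) / b₁ * e ^ m) • topF fun j => (X.x (X.σ j) : K)) ∈ adjStalk t n m w e' := by
  have htl := hw.t_ne hl'
  obtain ⟨φ', hφ'⟩ := hw.exists_pt hl'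
  obtain ⟨b', c', hc', hbc'⟩ := (mem_locRing htl hl' hφ').1 hU'
  obtain ⟨Ω', _, _, _, _, _, X', hx', hd', hg, z', hz'⟩ := exists_chart ht hs htl φ' hc'
  obtain ⟨Q₀, ι, hQ₀, hι₀⟩ := exists_trans X X' hl htl z₀
  obtain ⟨α, β, hβ, hαβ⟩ := chart_frac ht htl (e / e')
  have hι : IsTrans X X' (Q₀ * β) ι := fun z hz =>
    hι₀ z (left_ne_zero_of_mul (map_mul (X'.ev z) Q₀ β ▸ hz))
  have hβ1 : ∀ z, X'.ev z (Q₀ * β) ≠ 0 → X'.ev z β ≠ 0 := fun z hz =>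
    right_ne_zero_of_mul (map_mul (X'.ev z) Q₀ β ▸ hz)
  have hβ2 : (β : K) ≠ 0 := fun h => hβ (Subtype.ext h)
  obtain ⟨κ, hκ, r3⟩ := hι.jac hx hl htl hd' fun h => X'.ev_h z' (by rw [h, map_zero])
  have r1 := X'.rep_div (hι.rep hl htl a₁) (hι.rep hl htl b₁) (fun h => hb₁ (Subtype.ext h))
    (F := fun z => f (ι z)) fun z _ => hab (ι z)
  have r2 := X'.rep_div (Q := Q₀ * β) (X'.rep_ev α) (X'.rep_ev β) hβ2
    (F := fun z => X'.ev z α / X'.ev z β) fun z hz => div_mul_cancel₀ _ (hβ1 z hz)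
  have r4 : ((fun z => f (ι z) * (X'.ev z α / X'.ev z β) ^ m *
      (Matrix.of fun i j => X'.toEtDom.d j (fun w => X.π (ι w) i) z).det),
      (a₁ : K) / b₁ * ((α : K) / β) ^ m * κ) ∈ X'.Rep (Q₀ * β) :=
    mul_mem (mul_mem r1 (pow_mem r2 m)) r3
  have hW : IsOpen {z | X'.ev z (Q₀ * β) ≠ 0} := isOpen_ne_fun (X'.continuous_ev _) continuous_const
  have hG : Continuous fun z => ‖f z‖ ^ 2 *
      (‖X.ev z b / X.ev z c‖ ^ 2 / X.nrm z) ^ ((m : ℝ) / p) :=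
    (hf.norm.pow 2).mul (((((X.continuous_ev b).div (X.continuous_ev c) hc).norm.pow 2).div
      X.continuous_nrm fun z => by unfold Aff.nrm; positivity).rpow_const
        fun _ => Or.inr (by positivity))
  have hT := ne_top_of_le_ne_top h2 (EtDom.lint_cv hW (hι.continuousOn hx) (hι.injOn hx' htl)
    (fun z hz i => hι.hol hx hz i) (ENNReal.measurable_ofReal.comp hG.measurable))
  have hK : (c : K) * (α ^ p * c' : chartRing t l') =
      b * (β ^ p * chartX t l' l * b' : chartRing t l') := by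
    have h1 : (chartX t l' l : K) = t l / t l' := rfl
    push_cast
    rw [← hαβ, ← hbc', h1, mul_pow, div_pow]
    field_simp
    linear_combination (c' : K) * hU
  obtain ⟨b₂, c₂, h3, h4⟩ := X'.rep_reg r4 (mul_ne_zero hQ₀ hβ) (loc_L2 X'.ν hW hT
    (B := fun z => (((‖X'.ev z (chartX t l' l)‖ ^ 2 + ∑ i, ‖X'.ev z (chartX t l' i)‖ ^ 2) *
      ‖X'.ev z b' / X'.ev z c'‖ ^ 2) ^ m) ^ ((1 : ℝ) / p))
    ((((((X'.continuous_ev _).norm.pow 2).add (continuous_finsetSum _ fun i _ =>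
      (X'.continuous_ev _).norm.pow 2)).mul (((X'.continuous_ev b').div (X'.continuous_ev c')
        hg).norm.pow 2)).pow m).rpow_const fun _ => Or.inr (by positivity)) fun z hz => by
    have h5 := glob_bound hl htl (hι z hz).1 (hι z hz).2 (hc (ι z)) (hg z) (hβ1 z hz) (m := m) hp hK
    rw [← ENNReal.ofReal_mul (by unfold Aff.nrm; positivity),
      ← ENNReal.ofReal_mul (by positivity)]
    refine ENNReal.ofReal_le_ofReal ?_
    rw [norm_mul, norm_mul, mul_pow, mul_pow, Aff.nrm, hx, ← mul_assoc, mul_left_comm]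
    gcongr) z'
  rw [adjStalk_eq X' hd' htl hl' (z := z') (hz' ▸ hφ'), Submodule.mem_span_singleton]
  refine ⟨⟨_, (mem_locRing htl hl' hφ').2 ⟨b₂, c₂, hz' ▸ h3, h4⟩⟩, ?_⟩
  rw [hκ, Subalgebra.smul_def, smul_smul, smul_smul]
  congr 1
  change (a₁ : K) / b₁ * ((α : K) / β) ^ m * κ * e' ^ m = _
  rw [← hαβ, mul_div_cancel_right₀ _ hβ2, div_pow]
  field_simp

end Vale.Agent.P271
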