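import Vale.Agent.P271.S.Deg
import Vale.Agent.P271.S.Glob
import Vale.Agent.P271.M.Core

/-! P271 S/Final: from the affine theorem to the statement. See `notes/P271.md`, part S. -/

open MeasureTheory Set Filter Topology
open scoped ContDiff ENNReal ComplexConjugate

noncomputable section

namespace Vale.Agent.P271

theorem final_span {K : Type} [Field K] [Algebra ℂ K] {V : Type} [AddCommGroup V] [Module K V]
    (R : Subalgebra ℂ K) {a : K} (h0 : a ≠ 0) (h1 : a ∈ R) (h2 : a⁻¹ ∈ R) (η : V) :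
    Submodule.span R {a • η} = Submodule.span R {η} := by
  refine le_antisymm ?_ ?_ <;> rw [Submodule.span_singleton_le_iff_mem,
    Submodule.mem_span_singleton]
  · exact ⟨⟨a, h1⟩, rfl⟩
  · exact ⟨⟨a⁻¹, h2⟩, inv_smul_smul₀ h0 η⟩

theorem fujita : Fujita := by
  intro K _ _ N n t hn ht hs L p hp hL m hm v hv i hi
  obtain ⟨u, hu, hL'⟩ := id hL
  obtain ⟨l, hl⟩ := hv.exists_ne
  have htl := hv.t_ne hl
  have hut : u * t l ≠ 0 := mul_ne_zero hu htl
  have he : L.e i ^ p ≠ 0 := pow_ne_zero _ (L.e_ne i)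
  obtain ⟨φ, hφ⟩ := hv.exists_pt hl
  obtain ⟨b, c, hc, hbc⟩ := (mem_locRing htl hl hφ).1 (hyp_mem2 hv hl hu (hL' v hv i hi))
  obtain ⟨b', c', hc', hbc'⟩ := (mem_locRing htl hl hφ).1 (hyp_mem1 (L.e_ne i) (hL' v hv i hi) l)
  have hb : φ b ≠ 0 := by
    have e : b * b' = c * c' := Subtype.ext (by
      push_cast
      rw [← hbc, ← hbc']
      field_simp)
    have h1 := congrArg φ e
    rw [map_mul, map_mul] at h1
    exact left_ne_zero_of_mul (h1 ▸ mul_ne_zero hc hc')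
  obtain ⟨Ω, _, _, _, _, _, X, hx, hd, hg, z₀, hz₀⟩ := exists_chart ht hs htl φ (g := b * c)
    (by rw [map_mul]; exact mul_ne_zero hb hc)
  have hb1 : ∀ z, X.ev z b ≠ 0 := fun z => left_ne_zero_of_mul (map_mul (X.ev z) b c ▸ hg z)
  have hc1 : ∀ z, X.ev z c ≠ 0 := fun z => right_ne_zero_of_mul (map_mul (X.ev z) b c ▸ hg z)
  have hp0 : (p : ℝ) ≠ 0 := by positivity
  obtain ⟨f, hf, hf0, h2⟩ := X.core hn hp (hx ▸ degHyp_chart ht L hp hL htl) (θ := (m : ℝ) / p)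
    (by rw [div_mul_cancel₀ _ hp0]; exact_mod_cast hm) (u := fun z => X.ev z b / X.ev z c)
    (fun z => ⟨by
      simpa only [div_eq_mul_inv] using (X.hol b z).mul ((X.hol c z).inv (hc1 z)),
      div_ne_zero (hb1 z) (hc1 z)⟩) z₀
  obtain ⟨a₁, b₁, hb₁, hab⟩ := X.rat_of_L2 (fun e => hb (by rw [e, map_zero])) hc1 hp hf h2
  refine ⟨((a₁ : K) / b₁ * L.e i ^ m) • topF fun j => (X.x (X.σ j) : K), fun w hw j hj => ?_, ?_⟩
  · obtain ⟨l', hl'⟩ := hw.exists_ne
    refine glob ht hs X hx htl z₀ hc1 hp (continuous_iff_continuousAt.2 fun z =>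
      (hf z).smAt.continuousAt) h2 hb₁ hab (L.e_ne j) (u := u) ?_ hw hl'
      (hyp_mem1 (L.e_ne j) (hL' w hw j hj) l')
    rw [← hbc]
    field_simp
  · obtain ⟨s, a', hs0, hsa, hev⟩ := X.krull (hf z₀) hb₁ (Eventually.of_forall hab)
    have ha' : X.ev z₀ a' ≠ 0 := hev.self_of_nhds ▸ mul_ne_zero hf0 hs0
    rw [hz₀] at hs0 ha'
    have hb₁' : (b₁ : K) ≠ 0 := fun e => hb₁ (Subtype.ext e)
    have e : (a₁ : K) / b₁ * s = a' := by
      have h1 : (s : K) * a₁ = a' * b₁ := congrArg Subtype.val hsa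
      rw [div_mul_eq_mul_div, mul_comm, h1, mul_div_cancel_right₀ _ hb₁']
    have h0 : (a₁ : K) / b₁ ≠ 0 := fun h => ha' (by
      rw [show a' = 0 from Subtype.ext (by rw [← e, h, zero_mul]; rfl), map_zero])
    rw [adjStalk_eq X hd htl hl (z := z₀) (hz₀ ▸ hφ), mul_smul]
    exact final_span _ h0 ((mem_locRing htl hl hφ).2 ⟨a', s, hs0, e⟩)
      ((mem_locRing htl hl hφ).2 ⟨s, a', ha', by rw [← e, inv_mul_cancel_left₀ h0]⟩) _

end Vale.Agent.P271
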