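import Vale.Agent.P271.S.Reg

/-! P271 S/Pts: points of the charts, local rings. -/

open MeasureTheory Set Filter Topology MvPolynomial
open scoped ENNReal

set_option linter.unusedSectionVars false

noncomputable section

namespace Vale.Agent.P271

variable {K : Type} [Field K] [Algebra ℂ K] {N : ℕ} {t : Fin (N + 1) → K} {l l' : Fin (N + 1)} {v : Fin (N + 1) → ℂ}

theorem OnX.ne (hv : OnX t v) (hl : v l ≠ 0) : t l ≠ 0 := hv.t_ne hl

theorem chart_aeval (hl : t l ≠ 0) {P : MvPolynomial (Fin (N + 1)) ℂ} {d : ℕ}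
    (hP : P.IsHomogeneous d) :
    ((aeval (chartX t l) P : chartRing t l) : K) * t l ^ d = aeval t P := by
  rw [coe_aeval_homog hP, div_mul_cancel₀ _ (pow_ne_zero _ hl)]

theorem chart_exists (hl : t l ≠ 0) (a : chartRing t l) :
    ∃ (d : ℕ) (P : MvPolynomial (Fin (N + 1)) ℂ), P.IsHomogeneous d ∧
      aeval (chartX t l) P = a := chart_homog hl a

theorem OnX.exists_pt (hv : OnX t v) (hl : v l ≠ 0) :
    ∃ φ : chartRing t l →ₐ[ℂ] ℂ, ∀ i, φ (chartX t l i) = v i / v l := exists_chart_pt hv hl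

theorem onX_of_pt (hl : t l ≠ 0) (φ : chartRing t l →ₐ[ℂ] ℂ) :
    OnX t fun i => φ (chartX t l i) := chart_onX hl φ

theorem pt_aeval (hl : v l ≠ 0) {φ : chartRing t l →ₐ[ℂ] ℂ}
    (hφ : ∀ i, φ (chartX t l i) = v i / v l) {P : MvPolynomial (Fin (N + 1)) ℂ} {d : ℕ}
    (hP : P.IsHomogeneous d) : φ (aeval (chartX t l) P) * v l ^ d = eval v P := by
  rw [map_aeval_chart, funext hφ, eval_div_homog hP, div_mul_cancel₀ _ (pow_ne_zero _ hl)]

theorem mem_locRing (ht : t l ≠ 0) (hl : v l ≠ 0) {φ : chartRing t l →ₐ[ℂ] ℂ}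
    (hφ : ∀ i, φ (chartX t l i) = v i / v l) {a : K} :
    a ∈ locRing t v ↔ ∃ b c : chartRing t l, φ c ≠ 0 ∧ a * c = b := by
  rw [← locRing_div hl, ← funext hφ, mem_locRing_iff ht]
  exact ⟨fun ⟨c, h1, h2⟩ => ⟨⟨_, h2⟩, c, h1, mul_comm _ _⟩,
    fun ⟨b, c, h1, h2⟩ => ⟨c, h1, by rw [mul_comm, h2]; exact b.2⟩⟩

theorem chart_frac (ht : IsFunctionField t) (hl : t l ≠ 0) (a : K) :
    ∃ b c : chartRing t l, c ≠ 0 ∧ a * c = b := by
  obtain ⟨d, P, Q, hP, hQ, h0, e⟩ := ht.2 a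
  refine ⟨aeval (chartX t l) P, aeval (chartX t l) Q, fun h => h0 ?_, ?_⟩
  · rw [← chart_aeval hl hQ, h, ZeroMemClass.coe_zero, zero_mul]
  · rw [coe_aeval_homog hP, coe_aeval_homog hQ, ← mul_div_assoc, e]

theorem chart_change (hl : t l ≠ 0) (hl' : t l' ≠ 0) (a : chartRing t l) :
    ∃ (d : ℕ) (a' : chartRing t l'), (a : K) * (chartX t l' l : K) ^ d = a' ∧
      ∀ (φ : chartRing t l →ₐ[ℂ] ℂ) (φ' : chartRing t l' →ₐ[ℂ] ℂ), φ' (chartX t l' l) ≠ 0 →
        (∀ i, φ (chartX t l i) = φ' (chartX t l' i) / φ' (chartX t l' l)) →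
        φ a * φ' (chartX t l' l) ^ d = φ' a' := by
  obtain ⟨d, P, hP, rfl⟩ := chart_homog hl a
  refine ⟨d, aeval (chartX t l') P, ?_, fun φ φ' h0 h => ?_⟩
  · rw [coe_aeval_homog hP, coe_aeval_homog hP]
    change _ * (t l / t l') ^ d = _
    rw [div_pow, div_mul_div_cancel₀ (pow_ne_zero _ hl)]
  · rw [pt_aeval (v := fun i => φ' (chartX t l' i)) h0 h hP, map_aeval_chart]

theorem pt_rel (hl : t l ≠ 0) (hl' : t l' ≠ 0) {φ : chartRing t l →ₐ[ℂ] ℂ}
    {φ' : chartRing t l' →ₐ[ℂ] ℂ} (h0 : φ' (chartX t l' l) ≠ 0)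
    (h : ∀ i, φ (chartX t l i) = φ' (chartX t l' i) / φ' (chartX t l' l)) {a b : chartRing t l}
    {a' b' : chartRing t l'} (e : (a : K) * a' = b * b') : φ a * φ' a' = φ b * φ' b' := by
  obtain ⟨d, α, h1, h2⟩ := chart_change hl hl' a
  obtain ⟨d', β, h3, h4⟩ := chart_change hl hl' b
  have h5 : α * a' * chartX t l' l ^ d' = β * b' * chartX t l' l ^ d := Subtype.ext (by
    push_cast
    rw [← h1, ← h3]
    linear_combination (chartX t l' l : K) ^ d * (chartX t l' l : K) ^ d' * e)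
  have h6 := congrArg φ' h5
  simp only [map_mul, map_pow, ← h2 φ φ' h0 h, ← h4 φ φ' h0 h] at h6
  refine mul_right_cancel₀ (mul_ne_zero (pow_ne_zero d h0) (pow_ne_zero d' h0)) ?_
  linear_combination h6

end Vale.Agent.P271
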