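import Vale.Agent.P271.S.Defs

/-! P271 S/SD: definitions for the charts (derivations, Jacobian data, top forms, represented functions). -/

open MeasureTheory Set Filter Topology MvPolynomial
open scoped ENNReal

set_option linter.unusedSectionVars false

noncomputable section

namespace Vale.Agent.P271

/-- `δ` is a derivation along `ψ`. -/
structure IsDer {A R N : Type} [CommRing A] [Algebra ℂ A] [CommRing R] [Algebra ℂ R]
    [AddCommGroup N] [Module R N] (ψ : A →ₐ[ℂ] R) (δ : A → N) : Prop where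
  add : ∀ a b, δ (a + b) = δ a + δ b
  mul : ∀ a b, δ (a * b) = ψ a • δ b + ψ b • δ a
  alg : ∀ c : ℂ, δ (algebraMap ℂ A c) = 0

/-- After multiplying by `h`, all differentials are combinations of those of the `y j`. -/
def DRel {A : Type} [CommRing A] [Algebra ℂ A] {n : ℕ} (y : Fin n → A) (h : A) : Prop :=
  ∀ a : A, ∃ r : Fin n → A, ∀ (R N : Type) [CommRing R] [Algebra ℂ R] [AddCommGroup N]
    [Module R N] (ψ : A →ₐ[ℂ] R) (δ : A → N), IsDer ψ δ → ψ h • δ a = ∑ j, ψ (r j) • δ (y j)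

/-- A square system: equations, and the coordinates `σ j` at the places `κ j`. -/
structure Jac (n M : ℕ) where
  G : Fin M → MvPolynomial (Fin M) ℂ
  κ : Fin n → Fin M
  σ : Fin n → Fin M
  inj : Function.Injective κ
  Gκ : ∀ j, G (κ j) = X (σ j)

/-- The Jacobian determinant. -/
def Jac.det {n M : ℕ} (J : Jac n M) : MvPolynomial (Fin M) ℂ :=
  (Matrix.of fun k j => pderiv j (J.G k)).det

/-- The equations hold at `x`. -/
def Jac.On {n M : ℕ} (J : Jac n M) {A : Type} [CommRing A] [Algebra ℂ A] (x : Fin M → A) : Prop :=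
  ∀ k, k ∉ range J.κ → aeval x (J.G k) = 0

/-- The top form `d y 1 ∧ ⋯ ∧ d y n`. -/
def topF {K : Type} [Field K] [Algebra ℂ K] {n : ℕ} (y : Fin n → K) : ⋀[K]^n Ω[K⁄ℂ] :=
  exteriorPower.ιMulti K n fun i => KaehlerDifferential.D ℂ K (y i)

/-- Pairs of a function and a rational function that agree where `Q` does not vanish. -/
def Aff.Rep {K : Type} [Field K] [Algebra ℂ K] {A : Subalgebra ℂ K} {n M : ℕ} {Ω : Type}
    [TopologicalSpace Ω] [MeasurableSpace Ω] (X : Aff n M A Ω) (Q : A) :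
    Subring ((Ω → ℂ) × K) where
  carrier := {p | ∃ b c : A, c ≠ 0 ∧ p.2 * c = b ∧
    ∀ z, X.ev z Q ≠ 0 → p.1 z * X.ev z c = X.ev z b}
  mul_mem' := by
    rintro p q ⟨b, c, h1, h2, h3⟩ ⟨b', c', h1', h2', h3'⟩
    refine ⟨b * b', c * c', mul_ne_zero h1 h1', ?_, fun z hz => ?_⟩
    · rw [Subalgebra.coe_mul, Subalgebra.coe_mul, ← h2, ← h2', Prod.snd_mul]
      ring
    · rw [map_mul, map_mul, ← h3 z hz, ← h3' z hz, Prod.fst_mul, Pi.mul_apply]
      ring
  one_mem' := ⟨1, 1, one_ne_zero, one_mul _, fun _ _ => one_mul _⟩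
  add_mem' := by
    rintro p q ⟨b, c, h1, h2, h3⟩ ⟨b', c', h1', h2', h3'⟩
    refine ⟨b * c' + b' * c, c * c', mul_ne_zero h1 h1', ?_, fun z hz => ?_⟩
    · simp only [Subalgebra.coe_mul, Subalgebra.coe_add, ← h2, ← h2', Prod.snd_add]
      ring
    · simp only [map_mul, map_add, ← h3 z hz, ← h3' z hz, Prod.fst_add, Pi.add_apply]
      ring
  zero_mem' := ⟨0, 1, one_ne_zero, zero_mul _, fun _ _ => by simp⟩
  neg_mem' := by
    rintro p ⟨b, c, h1, h2, h3⟩
    refine ⟨-b, c, h1, ?_, fun z hz => ?_⟩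
    · rw [Subalgebra.coe_neg, ← h2, Prod.snd_neg, neg_mul]
    · rw [map_neg, ← h3 z hz, Prod.fst_neg, Pi.neg_apply, neg_mul]

end Vale.Agent.P271
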