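import Vale.Agent.P271.S.AffC

/-! P271 S/Chart: charts of a smooth projective variety.

Plan. Apply smoothness at `w i = φ (chartX t l i)` (`onX_of_pt`, `w l = 1`). The family `Fin.cons (X l - 1) F` has
independent gradients at `w` (`LinearIndependent.finCons` or `Fintype.linearIndependent_iff`; by Euler
`IsHomogeneous.sum_X_mul_pderiv` the functional `ξ ↦ ∑ w j * ξ j` kills the gradients of the `F i` and is `1` on that of
`X l - 1`). `exists_jac`, `Jac.exists_aff`, `Jac.dRel`, `chart_trdeg`. Auxiliary names start with `chart_`. -/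

open MeasureTheory Set Filter Topology MvPolynomial
open scoped ENNReal

set_option linter.unusedSectionVars false

noncomputable section

namespace Vale.Agent.P271

variable {K : Type} [Field K] [Algebra ℂ K] {N : ℕ} {t : Fin (N + 1) → K} {n : ℕ} {l : Fin (N + 1)}

theorem chart_li {r : ℕ} {F : Fin r → MvPolynomial (Fin (N + 1)) ℂ} {w : Fin (N + 1) → ℂ}
    (hl : w l = 1) (hF : ∀ i, ∃ d, (F i).IsHomogeneous d) (hw : ∀ i, eval w (F i) = 0)
    (hli : LinearIndependent ℂ fun i j => eval w (pderiv j (F i))) :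
    LinearIndependent ℂ fun i j => eval w (pderiv j
      ((Fin.cons (X l - 1) F : Fin (r + 1) → MvPolynomial (Fin (N + 1)) ℂ) i)) := by
  have e : (fun i j => eval w (pderiv j
      ((Fin.cons (X l - 1) F : Fin (r + 1) → MvPolynomial (Fin (N + 1)) ℂ) i))) =
      Fin.cons (Pi.single l 1) fun i j => eval w (pderiv j (F i)) := by
    funext i j
    refine Fin.cases ?_ (fun i => rfl) i
    by_cases h : j = l
    · simp [h]
    · simp [h, pderiv_X_of_ne (Ne.symm h)]
  rw [e]
  refine hli.finCons fun h => ?_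
  have h1 : Submodule.span ℂ (range fun i j => eval w (pderiv j (F i))) ≤
      LinearMap.ker (Fintype.linearCombination ℂ w) := by
    refine Submodule.span_le.2 ?_
    rintro _ ⟨i, rfl⟩
    obtain ⟨d, hd⟩ := hF i
    have h2 := congrArg (eval w) hd.sum_X_mul_pderiv
    simp only [map_sum, map_mul, eval_X, map_nsmul, hw, smul_zero] at h2
    simpa [Fintype.linearCombination_apply, mul_comm] using h2
  have h3 := h1 h
  simp [hl] at h3

theorem exists_chart (ht : IsFunctionField t) (hs : IsSmoothOfDim t n) (hl : t l ≠ 0)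
    (φ : chartRing t l →ₐ[ℂ] ℂ) {g : chartRing t l} (hg : φ g ≠ 0) :
    ∃ (Ω : Type) (_ : TopologicalSpace Ω) (_ : T2Space Ω) (_ : SecondCountableTopology Ω)
      (_ : MeasurableSpace Ω) (_ : BorelSpace Ω) (X : Aff n (N + 1) (chartRing t l) Ω),
      X.x = chartX t l ∧ DRel (X.x ∘ X.σ) X.h ∧ (∀ z, X.ev z g ≠ 0) ∧ ∃ z, X.ev z = φ := by
  obtain ⟨r, F, hr, hF, hli⟩ := hs.2 _ (onX_of_pt hl φ)
  have hw : ∀ i, eval (fun i => φ (chartX t l i)) (F i) = 0 := fun i => by
    obtain ⟨⟨d, hd⟩, h0⟩ := hF i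
    exact (onX_of_pt hl φ).2 d _ hd h0
  obtain ⟨J, hJ, hdet⟩ := exists_jac (n := n) (M := N + 1) (r := r + 1) (by omega)
    (Fin.cons (X l - 1) F) _ (chart_li (chart_pt_self hl φ) (fun i => (hF i).1) hw hli)
  have hon : J.On (chartX t l) := fun k hk => by
    obtain ⟨i, hi⟩ := hJ k hk
    rw [hi]
    refine Fin.cases ?_ (fun i => ?_) i
    · rw [Fin.cons_zero, map_sub, aeval_X, map_one, chartX_self hl, sub_self]
    · obtain ⟨⟨d, hd⟩, h0⟩ := hF i
      refine Subtype.ext ?_
      rw [Fin.cons_succ, coe_aeval_homog hd, h0, zero_div]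
      rfl
  have hφ : φ (aeval (chartX t l) J.det * g) ≠ 0 := by
    rw [aeval_eq_eval] at hdet
    rw [map_mul, map_aeval_chart]
    exact mul_ne_zero hdet hg
  obtain ⟨Ω, i1, i2, i3, i4, i5, Y, h1, h2, h3⟩ := J.exists_aff (A := chartRing t l)
    (x := chartX t l) chart_gen hon
    ((chart_trdeg ht hl).trans hs.1) (g := g) fun e => hφ (by rw [e, map_zero])
  refine ⟨Ω, i1, i2, i3, i4, i5, Y, h1, ?_, fun z e => Y.ev_h z ?_, Y.surj φ (h3 ▸ hφ)⟩
  · rw [h1, h2, h3]
    exact J.dRel (A := chartRing t l) (x := chartX t l) chart_gen hon g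
  · rw [h3, map_mul, e, mul_zero]

end Vale.Agent.P271
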