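import Vale.Agent.P271.S.OnV
import Vale.Agent.P271.H.Meas

/-! P271 S/AffC: the affine structure from Jacobian data.

Plan. Take `H` with `aeval x H = h := aeval x J.det * g`;
`Ω = {w : E M | (∀ P, aeval x P = 0 → aeval w P = 0) ∧ aeval w H ≠ 0}` as a subtype, `ev z` by
`AlgHom.liftOfSurjective` (or `Ideal.Quotient.liftₐ` and `Ideal.quotientKerAlgEquivOfSurjective`) with
`ev z (aeval x P) = aeval z P`. Sheets from `exists_section`, `section_on`, `exists_ch`; measure from
`EtDom.exists_meas`; `unr` and `tb` from `Jac.dRel`. Auxiliary names start with `affc_`. -/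

open MeasureTheory Set Filter Topology MvPolynomial
open scoped ENNReal

set_option linter.unusedSectionVars false

noncomputable section

namespace Vale.Agent.P271

variable {A : Type} [CommRing A] [IsDomain A] [Algebra ℂ A] {n M : ℕ}

theorem Jac.exists_aff (J : Jac n M) {x : Fin M → A} (gen : Algebra.adjoin ℂ (range x) = ⊤)
    (hJ : J.On x) (htr : Algebra.trdeg ℂ A = n) {g : A} (h0 : aeval x J.det * g ≠ 0) :
    ∃ (Ω : Type) (_ : TopologicalSpace Ω) (_ : T2Space Ω) (_ : SecondCountableTopology Ω)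
      (_ : MeasurableSpace Ω) (_ : BorelSpace Ω) (X : Aff n M A Ω),
      X.x = x ∧ X.σ = J.σ ∧ X.h = aeval x J.det * g := by
  have hsurj : Function.Surjective (aeval x : MvPolynomial (Fin M) ℂ →ₐ[ℂ] A) := by
    rw [← AlgHom.range_eq_top, ← Algebra.adjoin_range_eq_range_aeval, gen]
  have : Algebra.FiniteType ℂ A := ⟨⟨(finite_range x).toFinset, by simpa using gen⟩⟩
  have hd := J.dRel gen hJ g
  have htb := hd.tb h0 htr
  obtain ⟨H, hH⟩ := hsurj (aeval x J.det * g)
  let Z : Set (E M) := {w | (∀ P : MvPolynomial (Fin M) ℂ, aeval x P = 0 → aeval w P = 0) ∧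
    aeval w H ≠ 0}
  let ev : Z → A →ₐ[ℂ] ℂ := fun z => AlgHom.liftOfSurjective _ hsurj (aeval z.1) z.2.1
  have hev : ∀ z P, ev z (aeval x P) = aeval z.1 P := fun z P =>
    AlgHom.liftOfSurjective_apply _ hsurj _ _ P
  have hx : ∀ z i, ev z (x i) = z.1 i := fun z i => by simpa using hev z (X i)
  have hh : ∀ z, ev z (aeval x J.det * g) ≠ 0 := fun z => by
    rw [← hH, hev]
    exact z.2.2
  have hch : ∀ z : Z, ∃ c : OpenPartialHomeomorph Z (E n), z ∈ c.source ∧
      ⇑c = (fun w : Z => w.1 ∘ J.σ) ∧ AnalyticAt ℂ (fun y => (c.symm y).1) (z.1 ∘ J.σ) := fun z => by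
    have h1 : aeval z.1 J.det ≠ 0 := by
      have := hh z
      rw [map_mul, hev] at this
      exact left_ne_zero_of_mul this
    obtain ⟨s, hs, h2, h3, h4⟩ := J.exists_section (fun k hk => z.2.1 _ (hJ k hk)) h1
    refine exists_ch z J.σ hs ?_ (h4.mono fun w h hw => h fun k hk => hw.1 _ (hJ k hk))
    filter_upwards [J.section_on gen hJ htb.1 (ev z) (hx z) h1 hs h2 (h3.mono fun y h => h.1) h4,
      h3, (analyticAt_aeval hs H).continuousAt.eventually_ne (y := 0) (by
        rw [h2]
        exact z.2.2)] with y h5 h6 h7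
    exact ⟨⟨h5, h7⟩, h6.2⟩
  choose ch h1 h2 h3 using hch
  obtain ⟨ν, hν⟩ := EtDom.exists_meas (fun w : Z => w.1 ∘ J.σ) ch h1 h2
  refine ⟨Z, inferInstance, inferInstance, inferInstance, inferInstance, inferInstance,
    { π := fun w => w.1 ∘ J.σ, ch := ch, mem := h1, coe := h2, ν := ν, ν_ch := hν, x := x
      gen := gen, σ := J.σ, h := aeval x J.det * g, ev := ev, ev_h := hh
      surj := fun φ hφ => ?_
      emb := ?_
      π_eq := fun z j => (hx z _).symm
      hol := fun a z => ?_
      unr := fun z i => hd.unr (ev z) (hh z) (x i)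
      tb := htb }, rfl, rfl, rfl⟩
  · have h4 : ∀ P, aeval (fun i => φ (x i)) P = φ (aeval x P) := fun P =>
      (comp_aeval_apply x φ P).symm
    refine ⟨⟨fun i => φ (x i), fun P hP => by rw [h4, hP, map_zero], by rwa [h4, hH]⟩,
      AlgHom.ext fun a => ?_⟩
    obtain ⟨P, rfl⟩ := hsurj a
    rw [hev, h4]
  · simp only [hx]
    exact IsEmbedding.subtypeVal
  · obtain ⟨P, rfl⟩ := hsurj a
    simp only [hev]
    exact analyticAt_aeval (h3 z) P

end Vale.Agent.P271
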