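import Vale.Agent.P271.S.SD
import Vale.Agent.P271.S.Pts

/-! P271 S/Alg: unramified implies algebraic.

Plan. `DRel.isAlgebraic`: `K = FractionRing A`, `F = IntermediateField.adjoin ℂ (range (algebraMap A K ∘ y))`.
`δ a = KaehlerDifferential.D F K (algebraMap A K a)` is a derivation along `IsScalarTower.toAlgHom ℂ A K` killing
the `y j`, so it vanishes; then `D F K` vanishes on fractions, `Ω[K⁄F]` is trivial
(`KaehlerDifferential.span_range_derivation`), so `Algebra.FormallyUnramified F K`; `EssFiniteType F K` by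
`Algebra.EssFiniteType.of_comp`; `Algebra.FormallyUnramified.iff_isSeparable`;
`IntermediateField.isAlgebraic_adjoin_iff`; transfer to `A` along the injective map
(`Subalgebra.equivMapOfInjective`, `AlgHom.map_adjoin`, or `IsAlgebraic.of_ringHom_of_comp_eq`).
`DRel.tb`: `Algebra.IsAlgebraic.isTranscendenceBasis_of_le_trdeg_of_finite`. `DRel.exists_dvd`:
`IsAlgebraic.exists_nonzero_dvd`, `Algebra.adjoin_range_eq_range_aeval`. `chart_trdeg`: `trdeg_add_eq`,
`trdeg_eq_zero` (`chart_frac`). Auxiliary names start with `alg_`. -/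

open MeasureTheory Set Filter Topology MvPolynomial
open scoped ENNReal

set_option linter.unusedSectionVars false

noncomputable section

namespace Vale.Agent.P271

variable {A : Type} [CommRing A] [IsDomain A] [Algebra ℂ A] {n : ℕ} {y : Fin n → A} {h : A}

theorem DRel.isAlgebraic [Algebra.FiniteType ℂ A] (hd : DRel y h) (h0 : h ≠ 0) :
    Algebra.IsAlgebraic (Algebra.adjoin ℂ (range y)) A := by
  let K := FractionRing A
  let ψ : A →ₐ[ℂ] K := IsScalarTower.toAlgHom ℂ A K
  have hψ : Function.Injective ψ := IsFractionRing.injective A K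
  let F := IntermediateField.adjoin ℂ (ψ '' range y)
  have h1 : ∀ a, KaehlerDifferential.D F K (ψ a) = 0 := fun a => by
    obtain ⟨r, hr⟩ := hd a
    have h2 := hr K Ω[K⁄F] ψ (fun a => KaehlerDifferential.D F K (ψ a))
      ⟨fun a b => by rw [map_add, map_add], fun a b => by rw [map_mul, Derivation.leibniz],
        fun c => by rw [AlgHom.commutes, IsScalarTower.algebraMap_apply ℂ F K,
          Derivation.map_algebraMap]⟩
    have h3 : ∀ j, KaehlerDifferential.D F K (ψ (y j)) = 0 := fun j =>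
      (KaehlerDifferential.D F K).map_algebraMap
        ⟨_, IntermediateField.subset_adjoin _ _ ⟨_, ⟨j, rfl⟩, rfl⟩⟩
    simp only [h3, smul_zero, Finset.sum_const_zero] at h2
    exact (smul_eq_zero.1 h2).resolve_left ((map_ne_zero_iff _ hψ).2 h0)
  have : Algebra.FormallyUnramified F K := ⟨subsingleton_of_forall_eq 0 fun ω => by
    have h2 : (⊤ : Submodule K Ω[K⁄F]) ≤ ⊥ := by
      rw [← KaehlerDifferential.span_range_derivation, Submodule.span_le]
      rintro _ ⟨z, rfl⟩
      obtain ⟨a, b, -, rfl⟩ := IsFractionRing.div_surjective (A := A) z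
      change KaehlerDifferential.D F K (ψ a / ψ b) = 0
      rw [Derivation.leibniz_div, h1, h1, smul_zero, smul_zero, sub_zero, smul_zero]
    exact h2 trivial⟩
  have : Algebra.EssFiniteType A K := .of_isLocalization K (nonZeroDivisors A)
  have : Algebra.EssFiniteType ℂ K := .comp ℂ A K
  have : Algebra.EssFiniteType F K := .of_comp ℂ F K
  have h3 := (Algebra.FormallyUnramified.iff_isSeparable F K).1 inferInstance
  refine ⟨fun a => ?_⟩
  have h4 := IntermediateField.isAlgebraic_adjoin_iff.1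
    (Algebra.IsAlgebraic.isAlgebraic (R := F) (ψ a))
  rw [← AlgHom.map_adjoin] at h4
  exact h4.of_ringHom_of_comp_eq ((Algebra.adjoin ℂ (range y)).equivMapOfInjective ψ hψ) ψ
    (EquivLike.surjective _) hψ (RingHom.ext fun _ => rfl)

theorem DRel.tb [Algebra.FiniteType ℂ A] (hd : DRel y h) (h0 : h ≠ 0)
    (htr : Algebra.trdeg ℂ A = n) : IsTranscendenceBasis ℂ y := by
  have := hd.isAlgebraic h0
  exact Algebra.IsAlgebraic.isTranscendenceBasis_of_le_trdeg_of_finite ℂ y (by simp [htr])

theorem DRel.exists_dvd [Algebra.FiniteType ℂ A] (hd : DRel y h) (h0 : h ≠ 0) {b : A}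
    (hb : b ≠ 0) : ∃ q : MvPolynomial (Fin n) ℂ, q ≠ 0 ∧ b ∣ aeval y q := by
  obtain ⟨⟨r, hr⟩, h1, h2⟩ := ((hd.isAlgebraic h0).isAlgebraic b).exists_nonzero_dvd
    (mem_nonZeroDivisors_of_ne_zero hb)
  obtain ⟨q, rfl⟩ : r ∈ (aeval y : MvPolynomial (Fin n) ℂ →ₐ[ℂ] A).range :=
    Algebra.adjoin_range_eq_range_aeval ℂ y ▸ hr
  refine ⟨q, ?_, h2⟩
  rintro rfl
  exact h1 (Subtype.ext (map_zero _))

theorem chart_trdeg {K : Type} [Field K] [Algebra ℂ K] {N : ℕ} {t : Fin (N + 1) → K}
    (ht : IsFunctionField t) {l : Fin (N + 1)} (hl : t l ≠ 0) :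
    Algebra.trdeg ℂ (chartRing t l) = Algebra.trdeg ℂ K := by
  have : Algebra.IsAlgebraic (chartRing t l) K := ⟨fun a => by
    obtain ⟨b, c, hc, e⟩ := chart_frac ht hl a
    refine IsAlgebraic.of_mul (y := (c : K)) (mem_nonZeroDivisors_of_ne_zero fun h =>
      hc (Subtype.ext h)) (isAlgebraic_algebraMap c) ?_
    rw [mul_comm, e]
    exact isAlgebraic_algebraMap b⟩
  have : FaithfulSMul ℂ (chartRing t l) :=
    (faithfulSMul_iff_algebraMap_injective _ _).2 (algebraMap ℂ (chartRing t l)).injective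
  rw [← trdeg_add_eq ℂ (chartRing t l) (A := K), trdeg_eq_zero (A := K), add_zero]

end Vale.Agent.P271
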