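import Vale.Agent.P271.S.Old
import Vale.Agent.P271.Defs

/-! P271 S/Defs: the affine charts. -/

open Set

noncomputable section

namespace Vale.Agent.P271

variable {K : Type} [Field K] [Algebra ℂ K] {N : ℕ}

/-- The coordinate ring of the chart `t l ≠ 0`. -/
abbrev chartRing (t : Fin (N + 1) → K) (l : Fin (N + 1)) : Subalgebra ℂ K :=
  Algebra.adjoin ℂ (range fun i => t i / t l)

/-- The affine coordinates of the chart `t l ≠ 0`. -/
def chartX (t : Fin (N + 1) → K) (l i : Fin (N + 1)) : chartRing t l :=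
  ⟨t i / t l, Algebra.subset_adjoin ⟨i, rfl⟩⟩

end Vale.Agent.P271
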