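import Vale.Agent.P271.A.DegAbs
import Vale.Agent.P271.A.Norm

/-! P271 S/DegA: the algebraic part of the degree hypothesis. -/

open Set Filter

noncomputable section

namespace Vale.Agent.P271

theorem dega_prod {R κ : Type} [CommRing R] [Algebra ℂ R] {T : Submodule ℂ R} (s : Finset κ)
    {f : κ → R} (h : ∀ i ∈ s, f i ∈ T) : ∏ i ∈ s, f i ∈ T ^ s.card := by
  classical
  induction s using Finset.induction_on with
  | empty => simp [Submodule.one_le.1]
  | insert a s ha ih =>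
    rw [Finset.prod_insert ha, Finset.card_insert_of_notMem ha, pow_succ']
    exact Submodule.mul_mem_mul (h a (Finset.mem_insert_self _ _))
      (ih fun i hi => h i (Finset.mem_insert_of_mem hi))

/-- A monomial of large degree contains a large power of one variable. -/
theorem dega_mono {R ι : Type} [CommRing R] [Algebra ℂ R] [Fintype ι] [Nonempty ι] (t : ι → R)
    {m j : ℕ} (hm : Fintype.card ι * m ≤ m + j) {P : Submodule ℂ R}
    (h : ∀ k, ∀ b ∈ Submodule.span ℂ (range t) ^ j, t k ^ m * b ∈ P) :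
    Submodule.span ℂ (range t) ^ (m + j) ≤ P := by
  classical
  rw [Submodule.span_pow, Submodule.span_le]
  intro a ha
  obtain ⟨f, rfl⟩ := Set.mem_pow.1 ha
  choose g hg using fun i => (f i).2
  obtain ⟨k, hk⟩ := Fintype.exists_le_card_fiber_of_mul_le_card g (n := m) (by simpa using hm)
  obtain ⟨S, hS, hc⟩ := Finset.exists_subset_card_eq hk
  rw [List.prod_ofFn, ← Finset.prod_mul_prod_compl S]
  have e1 : ∏ i ∈ S, (f i : R) = t k ^ m := by
    have e0 : ∏ i ∈ S, (f i : R) = ∏ i ∈ S, t k := Finset.prod_congr rfl fun i hi => by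
      rw [← hg i, (Finset.mem_filter.1 (hS hi)).2]
    rw [e0, Finset.prod_const, hc]
  have e2 : Sᶜ.card = j := by
    rw [Finset.card_compl, hc, Fintype.card_fin, Nat.add_sub_cancel_left]
  rw [e1]
  refine h k _ ?_
  have e3 := dega_prod (T := Submodule.span ℂ (range t)) Sᶜ (f := fun i => (f i : R))
    fun i _ => Submodule.subset_span (f i).2
  rwa [e2] at e3

theorem dega_sing {R : Type} [CommRing R] [Algebra ℂ R] (a b : R) :
    Submodule.span ℂ {a} * Submodule.span ℂ {b} = Submodule.span ℂ {a * b} := by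
  rw [Submodule.span_mul_span, singleton_mul_singleton]

theorem dega_sing_pow {R : Type} [CommRing R] [Algebra ℂ R] (a : R) (n : ℕ) :
    Submodule.span ℂ {a} ^ n = Submodule.span ℂ {a ^ n} := by
  rw [Submodule.span_pow, singleton_pow]

theorem deg_field {K : Type} [Field K] [Algebra ℂ K] {W V : Submodule ℂ K} (hW : W.FG) (hV : V.FG)
    (h₁ : (1 : K) ∈ W) (h₂ : (1 : K) ∈ V)
    (g₁ : ∀ a : K, ∃ k, ∃ P ∈ W ^ k, ∃ Q ∈ W ^ k, Q ≠ 0 ∧ a * Q = P) {d : ℕ} {y : Fin d → K}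
    (hy : IsTranscendenceBasis ℂ y) {p r m : ℕ} (hpr : p.Coprime r) (hp : 1 ≤ p) {c : K}
    (h : V ^ p * W ^ m = Submodule.span ℂ {c} * W ^ (r + m)) (k : ℕ) :
    p ^ d * (k + d).choose d ≤ Module.finrank ℂ ↥(W ^ (k + p ^ d)) := by
  have : FiniteDimensional ℂ W := Module.Finite.of_fg hW
  have : FiniteDimensional ℂ ↥(V * W) := Module.Finite.of_fg (hV.mul hW)
  have hc : c ≠ 0 := by
    have h3 := Submodule.mul_mem_mul (Submodule.pow_mem_pow V h₂ p) (Submodule.pow_mem_pow W h₁ m)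
    rw [h] at h3
    obtain ⟨z, -, hz⟩ := Submodule.mem_span_singleton_mul.1 h3
    rintro rfl
    simp at hz
  have hle : W ≤ V * W := fun a ha => by simpa using Submodule.mul_mem_mul h₂ ha
  refine deg_abs W (V * W) h₁ (hle h₁) g₁ (fun a => ?_) hy (q := r + p) (M := m)
    (Nat.coprime_add_self_right.2 hpr) hp (by omega) (inv_ne_zero hc) (fun a ha b hb => ?_)
    (fun a ha b hb => ?_) k
  · obtain ⟨k, P, hP, Q, hQ, h0, e⟩ := g₁ a
    exact ⟨k, P, pow_le_pow_left' hle k hP, Q, pow_le_pow_left' hle k hQ, h0, e⟩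
  · have e : (V * W) ^ p * W ^ m = Submodule.span ℂ {c} * W ^ (r + p + m) := by
      calc (V * W) ^ p * W ^ m = V ^ p * W ^ m * W ^ p := by ring
        _ = _ := by rw [h]; ring
    have h3 := Submodule.mul_mem_mul ha hb
    rw [e] at h3
    obtain ⟨z, hz, ez⟩ := Submodule.mem_span_singleton_mul.1 h3
    rwa [mul_assoc, ← ez, inv_mul_cancel_left₀ hc]
  · have e : Submodule.span ℂ {c} * (W ^ (r + p) * (V * W) ^ m) = (V * W) ^ (p + m) := by
      calc _ = Submodule.span ℂ {c} * W ^ (r + m) * (W ^ p * V ^ m) := by ring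
        _ = _ := by rw [← h]; ring
    refine ⟨c * (a * b), ?_, (inv_mul_cancel_left₀ hc _).symm⟩
    rw [← e]
    exact Submodule.mul_mem_mul (Submodule.mem_span_singleton_self c) (Submodule.mul_mem_mul ha hb)

theorem dega_Vk_map {A B : Type} [CommRing A] [Algebra ℂ A] [CommRing B] [Algebra ℂ B] {M : ℕ}
    (x : Fin M → A) (ρ : A →ₐ[ℂ] B) (k : ℕ) :
    (Vk x k).map ρ.toLinearMap = (Vk x 1).map ρ.toLinearMap ^ k := by
  rw [Vk, Vk, pow_one, Submodule.map_pow]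

theorem dega_Vk_fg {A : Type} [CommRing A] [Algebra ℂ A] {M : ℕ} (x : Fin M → A) (k : ℕ) :
    (Vk x k).FG := (Submodule.fg_span ((finite_range x).insert 1)).pow k

theorem deg_of_eq {A : Type} [CommRing A] [Algebra ℂ A] {M : ℕ} {x : Fin M → A}
    (gen : Algebra.adjoin ℂ (range x) = ⊤) {𝔭 : Ideal A} [𝔭.IsPrime] {V : Submodule ℂ A}
    (hV : V.FG) {b c : A} (hb : b ∈ V) (hb' : b ∉ 𝔭) {p r m : ℕ} (hpr : p.Coprime r) (hp : 1 ≤ p)
    (h : V ^ p * Vk x m = Submodule.span ℂ {c} * Vk x (r + m)) {d : ℕ} {y : Fin d → A ⧸ 𝔭}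
    (hy : IsTranscendenceBasis ℂ y) (k : ℕ) : p ^ d * (k + d).choose d ≤
      Module.finrank ℂ ((Vk x (k + p ^ d)).map (Ideal.Quotient.mkₐ ℂ 𝔭).toLinearMap) := by
  let τ := IsScalarTower.toAlgHom ℂ (A ⧸ 𝔭) (FractionRing (A ⧸ 𝔭))
  let ρ : A →ₐ[ℂ] FractionRing (A ⧸ 𝔭) := τ.comp (Ideal.Quotient.mkₐ ℂ 𝔭)
  have hρ : ∀ a, ρ a = algebraMap (A ⧸ 𝔭) _ (Ideal.Quotient.mk 𝔭 a) := fun _ => rfl
  have hβ : ρ b ≠ 0 := by
    rw [hρ, Ne, IsFractionRing.to_map_eq_zero_iff, Ideal.Quotient.eq_zero_iff_mem]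
    exact hb'
  have := IsLocalization.isAlgebraic (FractionRing (A ⧸ 𝔭)) (nonZeroDivisors (A ⧸ 𝔭))
  have h1 := congrArg (Submodule.map ρ.toLinearMap) h
  rw [Submodule.map_mul, Submodule.map_mul, Submodule.map_pow, dega_Vk_map, dega_Vk_map x ρ (r + m),
    Submodule.map_span, image_singleton] at h1
  have h2 := deg_field (W := (Vk x 1).map ρ.toLinearMap)
    (V := Submodule.span ℂ {(ρ b)⁻¹} * V.map ρ.toLinearMap) ((dega_Vk_fg x 1).map _)
    ((Submodule.fg_span_singleton _).mul (hV.map _)) ⟨1, one_mem_Vk x 1, map_one ρ⟩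
    (Submodule.mem_span_singleton_mul.2 ⟨ρ b, ⟨b, hb, rfl⟩, inv_mul_cancel₀ hβ⟩) (fun a => ?_)
    (hy.algebraMap_comp (A := FractionRing (A ⧸ 𝔭))) hpr hp (m := m) (c := (ρ b)⁻¹ ^ p * ρ c) ?_ k
  · refine h2.trans ?_
    have : FiniteDimensional ℂ ((Vk x (k + p ^ d)).map (Ideal.Quotient.mkₐ ℂ 𝔭).toLinearMap) :=
      Module.Finite.of_fg ((dega_Vk_fg x _).map _)
    rw [← dega_Vk_map]
    have e : ρ.toLinearMap = τ.toLinearMap.comp (Ideal.Quotient.mkₐ ℂ 𝔭).toLinearMap := rfl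
    rw [e, Submodule.map_comp]
    exact Submodule.finrank_map_le _ _
  · obtain ⟨a₁, a₂, h3, rfl⟩ := IsFractionRing.div_surjective (A ⧸ 𝔭) a
    obtain ⟨a₁, rfl⟩ := Ideal.Quotient.mk_surjective a₁
    obtain ⟨a₂, rfl⟩ := Ideal.Quotient.mk_surjective a₂
    obtain ⟨k₁, hk₁⟩ := exists_mem_Vk x gen a₁
    obtain ⟨k₂, hk₂⟩ := exists_mem_Vk x gen a₂
    have h4 : ρ a₂ ≠ 0 := by
      rw [hρ]
      exact IsFractionRing.to_map_ne_zero_of_mem_nonZeroDivisors h3
    refine ⟨max k₁ k₂, ρ a₁, ?_, ρ a₂, ?_, h4, div_mul_cancel₀ _ h4⟩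
    · rw [← dega_Vk_map]
      exact ⟨a₁, Vk_mono x (le_max_left _ _) hk₁, rfl⟩
    · rw [← dega_Vk_map]
      exact ⟨a₂, Vk_mono x (le_max_right _ _) hk₂, rfl⟩
  · rw [mul_pow, mul_assoc, h1, dega_sing_pow, ← mul_assoc, dega_sing]
    rfl

end Vale.Agent.P271
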