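import Vale.Agent.P271.S.Serre
import Vale.Agent.P271.S.DegA

/-! P271 S/DegB: for generating sections `U` of `L ^ r` and the span `T` of the coordinates,
`U ^ p * T ^ m = u ^ r * T ^ (r + m)` for large `m`. -/

open Set MvPolynomial Filter

noncomputable section

namespace Vale.Agent.P271

variable {K : Type} [Field K] [Algebra ℂ K] {N : ℕ} {t : Fin (N + 1) → K} {l : Fin (N + 1)}

theorem degb_t (k : Fin (N + 1)) (n : ℕ) : t k ^ n ∈ Submodule.span ℂ (range t) ^ n :=
  Submodule.pow_mem_pow _ (Submodule.subset_span (mem_range_self k)) n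

theorem degb_form {P : MvPolynomial (Fin (N + 1)) ℂ} {d : ℕ} (hP : P.IsHomogeneous d) :
    aeval t P ∈ Submodule.span ℂ (range t) ^ d := by
  have e : Submodule.span ℂ (range t) =
      (homogeneousSubmodule (Fin (N + 1)) ℂ 1).map (aeval t).toLinearMap := by
    simp [homogeneousSubmodule_one_eq_span_X, Submodule.map_span, ← Set.range_comp,
      Function.comp_def]
  rw [e, ← Submodule.map_pow, homogeneousSubmodule_one_pow]
  exact ⟨P, hP, rfl⟩

theorem degb_chart (hl : t l ≠ 0) {a : K} (ha : a ∈ chartRing t l) :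
    ∀ᶠ m in atTop, a * t l ^ m ∈ Submodule.span ℂ (range t) ^ m := by
  obtain ⟨d, P, hP, e⟩ := chart_homog hl ⟨a, ha⟩
  have e1 : a = aeval t P / t l ^ d := by rw [← coe_aeval_homog hP, e]
  refine eventually_atTop.2 ⟨d, fun n hn => ?_⟩
  obtain ⟨j, rfl⟩ := Nat.exists_eq_add_of_le hn
  rw [e1, pow_add, pow_add, ← mul_assoc, div_mul_cancel₀ _ (pow_ne_zero _ hl)]
  exact Submodule.mul_mem_mul (degb_form hP) (degb_t l j)

variable (L : LineBundle t) {p r : ℕ} {u : K} (hu : u ≠ 0)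
  (hL : ∀ v, OnX t v → ∀ i, eval v (L.Q i) ≠ 0 → Submodule.span (locRing t v) {L.e i ^ p} =
    Submodule.span (locRing t v) (Set.range fun j => u * t j))

include hu hL

theorem degb_sec (hl : t l ≠ 0) {s : K} (hs : s ∈ L.Sec (r * p)) :
    s / (u * t l) ^ r ∈ chartRing t l := by
  refine reg_chart_one hl fun v hv hvl => ?_
  obtain ⟨j, hj⟩ := L.cover v hv
  have he := L.e_ne j
  have e : s / (u * t l) ^ r = s / L.e j ^ (r * p) * (L.e j ^ p / (u * t l)) ^ r := by
    rw [div_pow, ← pow_mul, mul_comm p r]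
    field_simp
  rw [e]
  exact mul_mem (hs v hv j hj) (pow_mem (hyp_mem2 hv hvl hu (hL v hv j hj)) r)

theorem degb_one {s : K} (hs : s ∈ L.Sec (r * p)) : ∀ᶠ m in atTop,
    ∀ b ∈ Submodule.span ℂ (range t) ^ m,
      s * b ∈ Submodule.span ℂ {u ^ r} * Submodule.span ℂ (range t) ^ (r + m) := by
  have h1 : ∀ k, ∀ᶠ m in atTop,
      s * t k ^ m ∈ Submodule.span ℂ {u ^ r} * Submodule.span ℂ (range t) ^ (r + m) := by
    intro k
    by_cases hk : t k = 0
    · filter_upwards [eventually_ne_atTop 0] with m hm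
      rw [hk, zero_pow hm, mul_zero]
      exact zero_mem _
    · filter_upwards [degb_chart hk (degb_sec L hu hL hk hs)] with m hm
      have e : s * t k ^ m = u ^ r * (t k ^ r * (s / (u * t k) ^ r * t k ^ m)) := by
        rw [mul_pow]
        field_simp
      rw [e, pow_add]
      exact Submodule.mul_mem_mul (Submodule.mem_span_singleton_self _)
        (Submodule.mul_mem_mul (degb_t k r) hm)
  obtain ⟨m, hm⟩ := (eventually_all.2 h1).exists
  refine eventually_atTop.2 ⟨(N + 1) * m, fun n hn => ?_⟩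
  obtain ⟨j, rfl⟩ := Nat.exists_eq_add_of_le (show m ≤ n by nlinarith)
  have h2 := dega_mono t (m := m) (j := j) (by simpa using hn)
    (P := Submodule.comap (LinearMap.mulLeft ℂ s)
      (Submodule.span ℂ {u ^ r} * Submodule.span ℂ (range t) ^ (r + (m + j)))) fun k b hb => by
    rw [Submodule.mem_comap, LinearMap.mulLeft_apply, ← mul_assoc, ← add_assoc, pow_add _ _ j,
      ← mul_assoc]
    exact Submodule.mul_mem_mul (hm k) hb
  exact fun b hb => h2 hb

theorem degb_le {U : Submodule ℂ K} (hU : U.FG) (hS : U ≤ L.Sec r) : ∀ᶠ m in atTop,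
    U ^ p * Submodule.span ℂ (range t) ^ m ≤
      Submodule.span ℂ {u ^ r} * Submodule.span ℂ (range t) ^ (r + m) := by
  obtain ⟨S, hS'⟩ := hU.pow p
  have h1 : U ^ p ≤ L.Sec (r * p) := (pow_le_pow_left' hS p).trans (L.sec_pow r p)
  have h2 := (eventually_all_finset S).2 fun s hs =>
    degb_one L hu hL (h1 (hS' ▸ Submodule.subset_span hs))
  filter_upwards [h2] with m hm
  rw [← hS']
  exact Submodule.le_div_iff_mul_le.1 (Submodule.span_le.2 fun s hs =>
    Submodule.mem_div_iff_forall_mul_mem.2 (hm s hs))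

theorem degb_two (hl : t l ≠ 0) {U : Submodule ℂ K} (hS : U ≤ L.Sec r)
    (hg : ∀ v, OnX t v → ∃ j, eval v (L.Q j) ≠ 0 ∧ ∃ s ∈ U, s ≠ 0 ∧ L.e j ^ r / s ∈ locRing t v) :
    ∀ᶠ m in atTop, (u * t l) ^ r * t l ^ m ∈ U ^ p * Submodule.span ℂ (range t) ^ m := by
  let I : Ideal (chartRing t l) :=
    { carrier := {a | ∀ᶠ m in atTop,
        (a : K) * (u * t l) ^ r * t l ^ m ∈ U ^ p * Submodule.span ℂ (range t) ^ m}
      add_mem' := fun {a b} ha hb => by
        filter_upwards [ha, hb] with m h1 h2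
        rw [Subalgebra.coe_add, add_mul, add_mul]
        exact add_mem h1 h2
      zero_mem' := Eventually.of_forall fun m => by simp
      smul_mem' := fun c a ha => by
        obtain ⟨m₁, h1⟩ := ha.exists
        obtain ⟨m₂, h2⟩ := eventually_atTop.1 (degb_chart hl c.2)
        refine eventually_atTop.2 ⟨m₁ + m₂, fun n hn => ?_⟩
        obtain ⟨j, rfl⟩ := Nat.exists_eq_add_of_le (show m₁ ≤ n by omega)
        have e : ((c • a : chartRing t l) : K) * (u * t l) ^ r * t l ^ (m₁ + j) =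
            (a : K) * (u * t l) ^ r * t l ^ m₁ * (c * t l ^ j) := by
          rw [smul_eq_mul, Subalgebra.coe_mul]
          ring
        rw [e, pow_add, ← mul_assoc]
        exact Submodule.mul_mem_mul h1 (h2 j (by omega)) }
  have hut : (u * t l) ^ r ≠ 0 := pow_ne_zero _ (mul_ne_zero hu hl)
  obtain ⟨n, hn⟩ := reg_rad I (g := 1) fun φ hφ => by
    have hv := chart_onX hl φ
    obtain ⟨j, hj, s, hs, hs0, h1⟩ := hg _ hv
    have he := L.e_ne j
    have h2 := degb_sec L hu hL hl (L.sec_pow r p (Submodule.pow_mem_pow _ (hS hs) p))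
    have h3 : (⟨_, h2⟩ : chartRing t l) ∈ I := Eventually.of_forall fun m => by
      show s ^ p / (u * t l) ^ r * (u * t l) ^ r * t l ^ m ∈ _
      rw [div_mul_cancel₀ _ hut]
      exact Submodule.mul_mem_mul (Submodule.pow_mem_pow _ hs p) (degb_t l m)
    have h4 := mul_mem (pow_mem (hyp_mem1 he (hL _ hv j hj) l) r) (pow_mem h1 p)
    obtain ⟨b, hb, h5⟩ := (mem_locRing_iff hl φ).1 h4
    have e : b = ⟨_, h5⟩ * ⟨_, h2⟩ := Subtype.ext (by
      show (b : K) = b * ((u * t l / L.e j ^ p) ^ r * (L.e j ^ r / s) ^ p) * (s ^ p / (u * t l) ^ r)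
      rw [div_pow, div_pow, ← pow_mul, ← pow_mul, mul_comm p r]
      field_simp)
    rw [e, map_mul, hφ _ h3, mul_zero] at hb
    exact (hb rfl).elim
  rw [one_pow] at hn
  filter_upwards [hn] with m hm
  simpa using hm

theorem degb_ge {U : Submodule ℂ K} (hS : U ≤ L.Sec r)
    (hg : ∀ v, OnX t v → ∃ j, eval v (L.Q j) ≠ 0 ∧ ∃ s ∈ U, s ≠ 0 ∧ L.e j ^ r / s ∈ locRing t v) :
    ∀ᶠ m in atTop, Submodule.span ℂ {u ^ r} * Submodule.span ℂ (range t) ^ (r + m) ≤
      U ^ p * Submodule.span ℂ (range t) ^ m := by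
  have h1 : ∀ k, ∀ᶠ m in atTop,
      (u * t k) ^ r * t k ^ m ∈ U ^ p * Submodule.span ℂ (range t) ^ m := by
    intro k
    by_cases hk : t k = 0
    · filter_upwards [eventually_ne_atTop 0] with m hm
      rw [hk, zero_pow hm, mul_zero]
      exact zero_mem _
    · exact degb_two L hu hL hk hS hg
  obtain ⟨m, hm⟩ := (eventually_all.2 h1).exists
  refine eventually_atTop.2 ⟨(N + 1) * (r + m), fun n hn => ?_⟩
  obtain ⟨j, rfl⟩ := Nat.exists_eq_add_of_le (show m ≤ n by nlinarith)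
  have h2 := dega_mono t (m := r + m) (j := j) (by simp only [Fintype.card_fin]; omega)
    (P := Submodule.comap (LinearMap.mulLeft ℂ (u ^ r))
      (U ^ p * Submodule.span ℂ (range t) ^ (m + j))) fun k b hb => by
    have e : u ^ r * (t k ^ (r + m) * b) = (u * t k) ^ r * t k ^ m * b := by ring
    rw [Submodule.mem_comap, LinearMap.mulLeft_apply, e, pow_add, ← mul_assoc]
    exact Submodule.mul_mem_mul (hm k) hb
  intro a ha
  obtain ⟨z, hz, rfl⟩ := Submodule.mem_span_singleton_mul.1 ha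
  rw [← add_assoc] at hz
  exact h2 hz

theorem degb_eq {U : Submodule ℂ K} (hU : U.FG) (hS : U ≤ L.Sec r)
    (hg : ∀ v, OnX t v → ∃ j, eval v (L.Q j) ≠ 0 ∧ ∃ s ∈ U, s ≠ 0 ∧ L.e j ^ r / s ∈ locRing t v) :
    ∃ m, U ^ p * Submodule.span ℂ (range t) ^ m =
      Submodule.span ℂ {u ^ r} * Submodule.span ℂ (range t) ^ (r + m) := by
  obtain ⟨m, h1, h2⟩ := ((degb_le L hu hL hU hS).and (degb_ge L hu hL hS hg)).exists
  exact ⟨m, le_antisymm h1 h2⟩

end Vale.Agent.P271
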