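import Vale.Agent.P271.S.Defs
import Vale.Agent.P271.A.DegAbs
import Vale.Agent.P271.A.Norm
import Vale.Agent.P271.S.DegB

/-! P271 S/Deg: the degree hypothesis. See `notes/P271.md`, part S. -/

open Set

noncomputable section

namespace Vale.Agent.P271

variable {K : Type} [Field K] [Algebra ℂ K] {N : ℕ}

theorem degc_den {B : Subalgebra ℂ K} (φ : B →ₐ[ℂ] ℂ) {U : Submodule ℂ K} (hU : U.FG)
    (h : ∀ s ∈ U, ∃ b : B, φ b ≠ 0 ∧ (b : K) * s ∈ B) :
    ∃ b : B, φ b ≠ 0 ∧ ∀ s ∈ U, (b : K) * s ∈ B := by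
  classical
  obtain ⟨S, rfl⟩ := hU
  choose b hb hb' using fun s : S => h s (Submodule.subset_span s.2)
  refine ⟨∏ s, b s, by rw [map_prod]; exact Finset.prod_ne_zero_iff.2 fun s _ => hb s, ?_⟩
  have h1 : Submodule.span ℂ (S : Set K) ≤
      B.toSubmodule.comap (LinearMap.mulLeft ℂ ((∏ s, b s : B) : K)) := by
    refine Submodule.span_le.2 fun s hs => ?_
    show ((∏ s, b s : B) : K) * s ∈ B
    rw [← Finset.prod_erase_mul _ _ (Finset.mem_univ ⟨s, hs⟩), Subalgebra.coe_mul, mul_assoc]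
    exact mul_mem (SetLike.coe_mem _) (hb' ⟨s, hs⟩)
  exact fun s hs => h1 hs

theorem degc_V1 {t : Fin (N + 1) → K} {l : Fin (N + 1)} (hl : t l ≠ 0) :
    (Vk (chartX t l) 1).map (chartRing t l).val.toLinearMap =
      Submodule.span ℂ {(t l)⁻¹} * Submodule.span ℂ (range t) := by
  rw [Vk, pow_one, ← chartX_self hl, insert_eq_of_mem (mem_range_self l), Submodule.map_span,
    Submodule.span_mul_span, singleton_mul, ← range_comp, ← range_comp]
  exact congrArg (fun f => Submodule.span ℂ (range f)) (funext fun i => div_eq_inv_mul _ _)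

theorem degc_id {U T : Submodule ℂ K} (a : K) {u w : K} (hw : w ≠ 0) {p r m : ℕ}
    (hm : U ^ p * T ^ m = Submodule.span ℂ {u ^ r} * T ^ (r + m)) :
    (Submodule.span ℂ {a} * U) ^ p * (Submodule.span ℂ {w⁻¹} * T) ^ m =
      Submodule.span ℂ {a ^ p * (u * w) ^ r} * (Submodule.span ℂ {w⁻¹} * T) ^ (r + m) := by
  have e : a ^ p * w⁻¹ ^ m * u ^ r = a ^ p * (u * w) ^ r * w⁻¹ ^ (r + m) := by
    rw [mul_pow u, pow_add, inv_pow, inv_pow]
    field_simp
  rw [mul_pow, mul_pow _ T, mul_pow _ T, mul_mul_mul_comm, hm, ← mul_assoc, ← mul_assoc,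
    dega_sing_pow, dega_sing_pow, dega_sing_pow, dega_sing, dega_sing, dega_sing, e]

theorem degc_abs {A : Type} [CommRing A] [Algebra ℂ A] (ι : A →ₐ[ℂ] K) (hι : Function.Injective ι)
    {M : ℕ} {x : Fin M → A} (gen : Algebra.adjoin ℂ (range x) = ⊤) {𝔭 : Ideal A} [𝔭.IsPrime]
    {U : Submodule ℂ K} (hU : U.FG) (hr : ∀ s ∈ U, ∃ a, ι a = s) {b : A} (hb : ι b ∈ U)
    (hb' : b ∉ 𝔭) {p r m : ℕ} (hpr : p.Coprime r) (hp : 1 ≤ p) {c : K}
    (h : U ^ p * (Vk x 1).map ι.toLinearMap ^ m =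
      Submodule.span ℂ {c} * (Vk x 1).map ι.toLinearMap ^ (r + m)) {d : ℕ} {y : Fin d → A ⧸ 𝔭}
    (hy : IsTranscendenceBasis ℂ y) (k : ℕ) : p ^ d * (k + d).choose d ≤
      Module.finrank ℂ ((Vk x (k + p ^ d)).map (Ideal.Quotient.mkₐ ℂ 𝔭).toLinearMap) := by
  have hV : (U.comap ι.toLinearMap).map ι.toLinearMap = U := Submodule.map_comap_eq_self hr
  have e1 : ((U.comap ι.toLinearMap) ^ p * Vk x m).map ι.toLinearMap =
      Submodule.span ℂ {c} * (Vk x (r + m)).map ι.toLinearMap := by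
    rw [Submodule.map_mul, Submodule.map_pow, hV, dega_Vk_map, dega_Vk_map _ _ (r + m), h]
  have h2 : c * 1 ∈ Submodule.span ℂ {c} * (Vk x (r + m)).map ι.toLinearMap :=
    Submodule.mul_mem_mul (Submodule.mem_span_singleton_self _) ⟨1, one_mem_Vk _ _, map_one ι⟩
  rw [← e1, mul_one] at h2
  obtain ⟨c, -, rfl⟩ := h2
  refine deg_of_eq gen (V := U.comap ι.toLinearMap) (c := c) (m := m)
    (Submodule.fg_of_fg_map_injective ι.toLinearMap hι (by rwa [hV])) hb hb' hpr hp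
    (Submodule.map_injective_of_injective (f := ι.toLinearMap) hι ?_) hy k
  rw [e1, Submodule.map_mul, Submodule.map_span, image_singleton]

theorem degHyp_chart {t : Fin (N + 1) → K} (ht : IsFunctionField t) (L : LineBundle t) {p : ℕ}
    (hp : 1 ≤ p) (hL : L.PowIsHyperplane p) {l : Fin (N + 1)} (hl : t l ≠ 0) :
    DegHyp (chartX t l) p := by
  intro 𝔭 h𝔭 d y hy k
  obtain ⟨u, hu, hL⟩ := hL
  obtain ⟨D, U, hU, hS, hg⟩ := L.serre hu hL
  have hpr : p.Coprime (1 + p * D) := by simp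
  generalize 1 + p * D = r at hS hg hpr
  obtain ⟨m, hm⟩ := degb_eq L hu hL hU hS hg
  obtain ⟨φ, hφ⟩ := exists_pt_of_ne_top h𝔭.ne_top
  have hv := chart_onX hl φ
  obtain ⟨j, hj, s₀, hs₀, h0, h1⟩ := hg _ hv
  have he := L.e_ne j
  obtain ⟨b, hb, hb'⟩ := degc_den φ (U := Submodule.span ℂ {s₀⁻¹} * U)
    ((Submodule.fg_span_singleton _).mul hU) fun s hs => by
      obtain ⟨z, hz, rfl⟩ := Submodule.mem_span_singleton_mul.1 hs
      refine (mem_locRing_iff hl φ).1 ?_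
      have e : s₀⁻¹ * z = z / L.e j ^ r * (L.e j ^ r / s₀) := by field_simp
      rw [e]
      exact mul_mem (hS hz _ hv j hj) h1
  have h2 := degc_id ((b : K) * s₀⁻¹) hl hm
  rw [← degc_V1 hl] at h2
  refine degc_abs (chartRing t l).val Subtype.val_injective chart_gen
    ((Submodule.fg_span_singleton _).mul hU) (fun s hs => ?_) (b := b)
    (Submodule.mem_span_singleton_mul.2 ⟨s₀, hs₀, inv_mul_cancel_right₀ h0 _⟩)
    (fun h => hb (hφ b h)) hpr hp h2 hy k
  obtain ⟨z, hz, rfl⟩ := Submodule.mem_span_singleton_mul.1 hs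
  exact ⟨⟨_, hb' _ (Submodule.mul_mem_mul (Submodule.mem_span_singleton_self _) hz)⟩,
    (mul_assoc _ _ _).symm⟩

end Vale.Agent.P271
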