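import Vale.Agent.P271.S.SD

/-! P271 S/Der: derivations and the Jacobian relation.

Plan. `IsDer.aeval`: `MvPolynomial.induction_on` (`pderiv_mul`, `pderiv_X`, `Pi.single`).
`Jac.dRel`: let `B k j = ψ (aeval x (pderiv j (G k)))`; `∑ j, B k j • δ (x j) = δ (aeval x (G k))` is
`δ (x (σ j))` for `k = κ j` and `0` otherwise (`δ 0 = 0`). With the adjugate (`Matrix.adjugate_mul`,
`RingHom.map_det`, `RingHom.map_adjugate`): `det B • δ (x i) = ∑ k, adj i k • δ (aeval x (G k))`. For
`a = aeval x P` put `r j = g * ∑ i, aeval x (pderiv i P * adjugate i (κ j))` (adjugate over the polynomial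
ring). `DRel.unr`: `R = ℂ`, `N = A ⧸ (ker φ ^ 2).restrictScalars ℂ`, `δ a` the class of `a - φ a`,
`c j = φ (r j) / φ h`. `exists_jac`: extend the gradients by standard basis vectors
(`exists_linearIndepOn_extension` for `Sum.elim g (Pi.basisFun ℂ _)` on `range Sum.inl ⊆ univ`; the extension `b`
spans, has `M` elements, so `n` of them are basis vectors); `Matrix.linearIndependent_rows_iff_isUnit`.
Auxiliary names start with `der_`. -/

open MeasureTheory Set Filter Topology MvPolynomial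
open scoped ENNReal

set_option linter.unusedSectionVars false

noncomputable section

namespace Vale.Agent.P271

variable {A : Type} [CommRing A] [Algebra ℂ A] {n M : ℕ}

theorem IsDer.der_zero {R N : Type} [CommRing R] [Algebra ℂ R] [AddCommGroup N] [Module R N]
    {ψ : A →ₐ[ℂ] R} {δ : A → N} (h : IsDer ψ δ) : δ 0 = 0 := by
  simpa using h.alg 0

theorem IsDer.aeval {R N : Type} [CommRing R] [Algebra ℂ R] [AddCommGroup N] [Module R N]
    {ψ : A →ₐ[ℂ] R} {δ : A → N} (h : IsDer ψ δ) (x : Fin M → A) (P : MvPolynomial (Fin M) ℂ) :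
    δ (aeval x P) = ∑ j, ψ (aeval x (pderiv j P)) • δ (x j) := by
  induction P using MvPolynomial.induction_on with
  | C a => simp [h.alg]
  | add p q hp hq =>
    simp only [map_add, h.add, hp, hq, add_smul, Finset.sum_add_distrib]
  | mul_X p i hp =>
    simp only [map_mul, aeval_X, h.mul, hp, Derivation.leibniz, smul_eq_mul, map_add, add_smul,
      Finset.sum_add_distrib, Finset.smul_sum, mul_smul, pderiv_X]
    congr 1
    rw [Finset.sum_eq_single i (fun j _ hj => by simp [Pi.single_eq_of_ne' hj]) (by simp)]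
    simp

theorem Jac.dRel (J : Jac n M) {x : Fin M → A} (gen : Algebra.adjoin ℂ (range x) = ⊤)
    (hJ : J.On x) (g : A) : DRel (x ∘ J.σ) (aeval x J.det * g) := fun a => by
  obtain ⟨P, rfl⟩ : a ∈ (aeval x : MvPolynomial (Fin M) ℂ →ₐ[ℂ] A).range := by
    rw [← Algebra.adjoin_range_eq_range_aeval, gen]
    trivial
  let B : Matrix (Fin M) (Fin M) (MvPolynomial (Fin M) ℂ) := Matrix.of fun k j => pderiv j (J.G k)
  refine ⟨fun j => aeval x (∑ i, pderiv i P * B.adjugate i (J.κ j)) * g,
    fun R N _ _ _ _ ψ δ hδ => ?_⟩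
  let θ : MvPolynomial (Fin M) ℂ →ₐ[ℂ] R := ψ.comp (aeval x)
  have h1 : ∀ i, θ J.det • δ (x i) = ∑ j, θ (B.adjugate i (J.κ j)) • δ (x (J.σ j)) := fun i => by
    have h2 : ∑ k, θ (B.adjugate i k) • δ (aeval x (J.G k)) = θ J.det • δ (x i) := by
      simp only [hδ.aeval, Finset.smul_sum, smul_smul]
      rw [Finset.sum_comm, Finset.sum_eq_single i (fun j _ hj => ?_) (by simp), ← Finset.sum_smul]
      · have h3 := congrArg θ (congrFun (congrFun B.adjugate_mul i) i)
        simp only [Matrix.mul_apply, map_sum, map_mul, Matrix.smul_apply, Matrix.one_apply_eq,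
          smul_eq_mul, mul_one] at h3
        exact congrArg (· • δ (x i)) h3
      · have h3 := congrArg θ (congrFun (congrFun B.adjugate_mul i) j)
        simp only [Matrix.mul_apply, map_sum, map_mul, Matrix.smul_apply,
          Matrix.one_apply_ne' hj, smul_zero, map_zero] at h3
        rw [← Finset.sum_smul]
        exact (congrArg (· • δ (x j)) h3).trans (zero_smul _ _)
    rw [← h2, ← Finset.sum_subset (Finset.subset_univ (Finset.univ.map ⟨J.κ, J.inj⟩))
      fun k _ hk => by rw [hJ k (by simpa using hk), hδ.der_zero, smul_zero], Finset.sum_map]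
    simp [J.Gκ]
  change ψ (aeval x J.det * g) • δ (aeval x P) = _
  rw [hδ.aeval, map_mul, mul_comm, mul_smul, Finset.smul_sum]
  simp only [map_mul, map_sum, mul_comm _ (ψ g), mul_smul, ← Finset.smul_sum, Finset.sum_smul]
  rw [Finset.sum_comm, Finset.smul_sum]
  refine congrArg _ (Finset.sum_congr rfl fun i _ => ?_)
  rw [smul_comm, ← Finset.smul_sum]
  exact congrArg _ (h1 i)

theorem DRel.unr {y : Fin n → A} {h : A} (hd : DRel y h) (φ : A →ₐ[ℂ] ℂ) (hφ : φ h ≠ 0) (a : A) :
    ∃ c : Fin n → ℂ, a - algebraMap ℂ A (φ a) -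
      ∑ j, c j • (y j - algebraMap ℂ A (φ (y j))) ∈ RingHom.ker φ ^ 2 := by
  obtain ⟨r, hr⟩ := hd a
  let I : Submodule ℂ A := (RingHom.ker φ ^ 2).restrictScalars ℂ
  have h0 : ∀ b, b - algebraMap ℂ A (φ b) ∈ RingHom.ker φ := fun b => by simp [RingHom.mem_ker]
  have h1 := hr ℂ (A ⧸ I) φ (fun b => I.mkQ (b - algebraMap ℂ A (φ b))) ⟨fun a b => ?_,
    fun a b => ?_, fun c => by simp⟩
  · refine ⟨fun j => φ (r j) / φ h, (Submodule.Quotient.eq I).1 ?_⟩
    change I.mkQ _ = I.mkQ _
    rw [← inv_smul_smul₀ hφ (I.mkQ (a - _)), h1, Finset.smul_sum, map_sum]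
    exact Finset.sum_congr rfl fun j _ => by simp only [map_smul, smul_smul, div_eq_inv_mul]
  · rw [← map_add, map_add φ, map_add, add_sub_add_comm]
  · rw [← map_smul, ← map_smul, ← map_add]
    refine (Submodule.Quotient.eq I).2 ?_
    change _ ∈ RingHom.ker φ ^ 2
    convert (sq (RingHom.ker φ)).ge (Ideal.mul_mem_mul (h0 a) (h0 b)) using 1
    simp only [map_mul, Algebra.smul_def]
    ring

theorem exists_jac {r : ℕ} (hr : n + r = M) (F : Fin r → MvPolynomial (Fin M) ℂ) (w : Fin M → ℂ)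
    (hF : LinearIndependent ℂ fun i j => eval w (pderiv j (F i))) :
    ∃ J : Jac n M, (∀ k, k ∉ range J.κ → ∃ i, J.G k = F i) ∧ aeval w J.det ≠ 0 := by
  let G : Fin r ⊕ Fin M → MvPolynomial (Fin M) ℂ := Sum.elim F X
  let v : Fin r ⊕ Fin M → Fin M → ℂ := fun k j => eval w (pderiv j (G k))
  have hv : ∀ k, v (.inr k) = Pi.basisFun ℂ (Fin M) k := fun k => funext fun j => by
    by_cases h : j = k
    · simp [v, G, h]
    · simp [v, G, h]
  obtain ⟨b, -, hb1, hb2, hb3⟩ := exists_linearIndepOn_extension (K := ℂ) (v := v)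
    (s := range Sum.inl) ((linearIndepOn_range_iff Sum.inl_injective v).2 hF) (subset_univ _)
  have hsp : ⊤ ≤ Submodule.span ℂ (range fun k : b => v k) := by
    rw [← (Pi.basisFun ℂ (Fin M)).span_eq, Submodule.span_le, ← image_eq_range]
    rintro _ ⟨k, rfl⟩
    exact hb2 ⟨.inr k, trivial, hv k⟩
  classical
  have hc : Fintype.card b = M := by
    rw [← Module.finrank_eq_card_basis (Module.Basis.mk hb3 hsp), Module.finrank_fin_fun]
  let e : Fin M ≃ b := (Fintype.equivFinOfCardEq hc).symm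
  let T := {k : Fin M // (e k).1 ∉ range Sum.inl}
  have hT : Fintype.card T = n := by
    have h1 : Fintype.card {k : Fin M // (e k).1 ∈ range Sum.inl} = r := by
      refine (Fintype.card_congr (Equiv.ofBijective (fun i => ⟨e.symm ⟨.inl i, hb1 ⟨i, rfl⟩⟩,
        by simp⟩) ⟨fun i j h => Sum.inl_injective (congrArg Subtype.val
          (e.symm.injective (congrArg Subtype.val h))), ?_⟩)).symm.trans (Fintype.card_fin r)
      rintro ⟨k, i, hi⟩
      exact ⟨i, Subtype.ext (e.symm_apply_eq.2 (Subtype.ext hi))⟩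
    rw [Fintype.card_subtype_compl, h1, Fintype.card_fin]
    omega
  let κ : Fin n ≃ T := (Fintype.equivFinOfCardEq hT).symm
  have h2 : ∀ j, ∃ i, (e (κ j)).1 = .inr i := fun j => by
    have := (κ j).2
    rcases h : (e (κ j)).1 with i | i
    · exact (this ⟨i, h.symm⟩).elim
    · exact ⟨i, rfl⟩
  choose σ hσ using h2
  refine ⟨⟨fun k => G (e k), fun j => κ j, σ, Subtype.val_injective.comp κ.injective,
    fun j => by rw [hσ]; rfl⟩, fun k hk => ?_, ?_⟩
  · by_contra h
    refine hk ⟨κ.symm ⟨k, fun ⟨i, hi⟩ => h ⟨i, ?_⟩⟩, by simp⟩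
    change G (e k) = F i
    rw [← hi]
    rfl
  · rw [Jac.det, AlgHom.map_det]
    exact ((Matrix.isUnit_iff_isUnit_det _).1 (Matrix.linearIndependent_rows_iff_isUnit.1
      (hb3.comp e e.injective))).ne_zero

end Vale.Agent.P271
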