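import Vale.Agent.P271.S.SD
import Vale.Agent.P271.S.Pts
import Vale.Agent.P271.H.Calc

/-! P271 S/Diff: differentials in a chart.

Plan. `topF_det`: the alternating map `(ιMulti K n).compLinearMap (Fintype.linearCombination K (D ∘ y))` on
`Fin n → K` equals `Matrix.detRowAlternating.smulRight (topF y)` (`Basis.ext_alternating` with `Pi.basisFun`, an
injective self map of `Fin n` is a permutation, `AlternatingMap.map_perm`). `isDer_pt`: `d_add`, `d_mul`, `d_const`
with `X.hol`. `frac_diff`: use `hd` for `a` and `b` with `ψ = A.val`, `δ = D ∘ val` and with `isDer_pt`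
(`π_eq`, `d_π`); `ρ j = b * r j a - a * r j b`; for the quotient `F = ev a / ev b` differentiate `F * ev b = ev a`
near `z` (`d_congr`, `HolAt.inv`). `adjStalk_eq`: `mem_locRing`, `frac_diff`, `topF_det`; the determinant of a matrix
with entries in the subalgebra lies in it (`Matrix.det_apply'`). Auxiliary names start with `diff_`. -/

open MeasureTheory Set Filter Topology MvPolynomial
open scoped ENNReal

set_option linter.unusedSectionVars false

noncomputable section

namespace Vale.Agent.P271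

variable {K : Type} [Field K] [Algebra ℂ K] {n M : ℕ}
  {Ω : Type} [TopologicalSpace Ω] [T2Space Ω] [SecondCountableTopology Ω] [MeasurableSpace Ω]
  [BorelSpace Ω]

theorem topF_det {y φ : Fin n → K} (c : Matrix (Fin n) (Fin n) K)
    (h : ∀ i, KaehlerDifferential.D ℂ K (φ i) = ∑ j, c i j • KaehlerDifferential.D ℂ K (y j)) :
    topF φ = c.det • topF y := by
  let f := (exteriorPower.ιMulti K n).compLinearMap
    (Fintype.linearCombination K fun j => KaehlerDifferential.D ℂ K (y j))
  have h1 : f = Matrix.detRowAlternating.smulRight (topF y) := by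
    refine (Pi.basisFun K (Fin n)).ext_alternating fun v hv => ?_
    let e := Equiv.ofBijective v (Finite.injective_iff_bijective.1 hv)
    change f ((Pi.basisFun K (Fin n)) ∘ e) =
      Matrix.detRowAlternating.smulRight (topF y) ((Pi.basisFun K (Fin n)) ∘ e)
    rw [AlternatingMap.map_perm, AlternatingMap.map_perm]
    congr 1
    have h2 : Matrix.detRowAlternating (Pi.basisFun K (Fin n)) = 1 := by
      rw [← Matrix.det_one (n := Fin n) (R := K)]
      refine congrArg Matrix.det (Matrix.ext fun i j => ?_)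
      simp [Matrix.one_apply, Pi.single_apply, eq_comm]
    rw [AlternatingMap.smulRight_apply, h2, one_smul]
    simp [f, topF]
  have h3 := DFunLike.congr_fun h1 c
  refine Eq.trans ?_ h3
  exact congrArg (exteriorPower.ιMulti K n) (funext h)

theorem Aff.isDer_pt {A : Type} [CommRing A] [Algebra ℂ A] (X : Aff n M A Ω) (z : Ω) (j : Fin n) :
    IsDer (X.ev z) fun a => X.toEtDom.d j (fun w => X.ev w a) z :=
  ⟨fun a b => by simpa only [map_add] using EtDom.d_add j (X.hol a z).smAt (X.hol b z).smAt,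
    fun a b => by
      simp only [map_mul, smul_eq_mul]
      rw [EtDom.d_mul j (X.hol a z).smAt (X.hol b z).smAt]
      ring,
    fun c => by simpa only [AlgHom.commutes] using EtDom.d_const j _⟩

theorem Aff.frac_diff {A : Subalgebra ℂ K} (X : Aff n M A Ω) (hd : DRel (X.x ∘ X.σ) X.h) (a : A)
    {b : A} (hb : b ≠ 0) : ∃ ρ : Fin n → A,
      ((X.h * b ^ 2 : A) : K) • KaehlerDifferential.D ℂ K ((a : K) / b) =
        ∑ j, (ρ j : K) • KaehlerDifferential.D ℂ K (X.x (X.σ j) : K) ∧
      ∀ z j, X.ev z b ≠ 0 → X.ev z (X.h * b ^ 2) *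
        X.toEtDom.d j (fun w => X.ev w a / X.ev w b) z = X.ev z (ρ j) := by
  obtain ⟨r, hr⟩ := hd a
  obtain ⟨r', hr'⟩ := hd b
  have hb' : (b : K) ≠ 0 := fun h => hb (Subtype.ext h)
  refine ⟨fun j => b * r j - a * r' j, ?_, fun z j hz => ?_⟩
  · have h : IsDer A.val fun a : A => KaehlerDifferential.D ℂ K a :=
      ⟨fun a b => map_add _ _ _, fun a b => Derivation.leibniz _ _ _,
        fun c => Derivation.map_algebraMap _ c⟩
    have h1 := hr K _ _ _ h
    have h2 := hr' K _ _ _ h
    simp only [Subalgebra.coe_val, Function.comp_apply] at h1 h2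
    push_cast
    simp only [sub_smul, mul_smul, Finset.sum_sub_distrib, ← Finset.smul_sum, ← h1, ← h2,
      Derivation.leibniz_div, inv_pow, smul_inv_smul₀ (pow_ne_zero 2 hb'), smul_sub,
      smul_comm (X.h : K)]
  · have h1 := hr ℂ ℂ _ _ (X.isDer_pt z j)
    have h2 := hr' ℂ ℂ _ _ (X.isDer_pt z j)
    simp only [Function.comp_apply, ← X.π_eq, EtDom.d_π, smul_eq_mul, mul_ite, mul_one, mul_zero,
      Finset.sum_ite_eq, Finset.mem_univ, if_true] at h1 h2
    have h3 : X.toEtDom.HolAt (fun w => X.ev w a / X.ev w b) z := by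
      simpa only [div_eq_mul_inv] using (X.hol a z).mul ((X.hol b z).inv hz)
    have h4 := EtDom.d_mul j h3.smAt (X.hol b z).smAt
    rw [EtDom.d_congr j (g := fun w => X.ev w a)
      (((X.hol b z).smAt.continuousAt.eventually_ne hz).mono fun w hw => div_mul_cancel₀ _ hw)] at h4
    simp only [map_mul, map_sub, map_pow, ← h1, ← h2, h4]
    field_simp
    ring

theorem adjStalk_eq {N : ℕ} {t : Fin (N + 1) → K} {l : Fin (N + 1)} {v : Fin (N + 1) → ℂ}
    (X : Aff n (N + 1) (chartRing t l) Ω) (hd : DRel (X.x ∘ X.σ) X.h) (ht : t l ≠ 0)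
    (hl : v l ≠ 0) {z : Ω} (hz : ∀ i, X.ev z (chartX t l i) = v i / v l) (m : ℕ) (e : K) :
    adjStalk t n m v e =
      Submodule.span (locRing t v) {e ^ m • topF fun j => (X.x (X.σ j) : K)} := by
  have h1 : ∀ a : chartRing t l, (a : K) ∈ locRing t v := fun a =>
    (mem_locRing ht hl hz).2 ⟨a, 1, by simp, mul_one _⟩
  refine le_antisymm (Submodule.span_le.2 ?_) (Submodule.span_mono ?_)
  · rintro _ ⟨φ, hφ, rfl⟩
    have h2 : ∀ i, ∃ c : Fin n → locRing t v, KaehlerDifferential.D ℂ K (φ i) =
        ∑ j, (c j : K) • KaehlerDifferential.D ℂ K (X.x (X.σ j) : K) := fun i => by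
      obtain ⟨a, b, hb, e⟩ := (mem_locRing ht hl hz).1 (hφ i)
      have hb0 : b ≠ 0 := fun h => hb (by rw [h, map_zero])
      obtain ⟨ρ, h3, -⟩ := X.frac_diff hd a hb0
      have h4 : X.ev z (X.h * b ^ 2) ≠ 0 := by
        rw [map_mul, map_pow]
        exact mul_ne_zero (X.ev_h z) (pow_ne_zero _ hb)
      have h5 : ((X.h * b ^ 2 : chartRing t l) : K) ≠ 0 := fun h =>
        h4 (by rw [show X.h * b ^ 2 = 0 from Subtype.ext h, map_zero])
      refine ⟨fun j => ⟨ρ j / (X.h * b ^ 2 : chartRing t l),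
        (mem_locRing ht hl hz).2 ⟨ρ j, _, h4, div_mul_cancel₀ _ h5⟩⟩, ?_⟩
      rw [← e, mul_div_cancel_right₀ _ fun h => hb0 (Subtype.ext h)] at h3
      rw [← inv_smul_smul₀ h5 (KaehlerDifferential.D ℂ K (φ i)), h3, Finset.smul_sum]
      simp only [smul_smul, div_eq_inv_mul]
    choose c hc using h2
    refine Submodule.mem_span_singleton.2 ⟨(Matrix.of c).det, ?_⟩
    change _ = e ^ m • topF φ
    rw [topF_det ((locRing t v).val.mapMatrix (Matrix.of c)) hc, ← AlgHom.map_det, smul_comm]
    rfl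
  · rintro _ rfl
    exact ⟨_, fun j => h1 _, rfl⟩

end Vale.Agent.P271
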