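import Vale.Agent.P271.S.Der

/-! P271 S/IFT: the inverse function theorem.

Plan. `exists_section`: `Φ w k = aeval w (G k)` is analytic (`AnalyticAt.aeval_mvPolynomial`) with derivative
`Matrix.toLin'` of the Jacobian matrix (compare on `Pi.single j 1`: `IsDer`-free induction
`HasFDerivAt (fun w => aeval w P) (∑ j, aeval w (pderiv j P) • proj j) w`); it is invertible since the
determinant is nonzero (`LinearEquiv.toContinuousLinearEquiv`, `Matrix.toLinearEquiv'`). Let `c` be
`HasStrictFDerivAt.toOpenPartialHomeomorph`, `c.symm` is analytic (`OpenPartialHomeomorph.analyticAt_symm'`).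
`s y = c.symm (ext y)` with `ext y k = ∑ j, if κ j = k then y j else 0`; `J.On w` iff `Φ w = ext (w ∘ σ)`.
`exists_ch`: take open `V ∋ y₀` on which `s` is continuous, `s y ∈ Z`, `s y ∘ σ = y` and open `U ∋ z` on which
`w ∈ Z → s (w ∘ σ) = w`; source `{w | w ∈ U ∧ w ∘ σ ∈ V}`, target `{y ∈ V | s y ∈ U}`, inverse
`y ↦ if h : s y ∈ Z then ⟨s y, h⟩ else z`. Auxiliary names start with `ift_`. -/

open MeasureTheory Set Filter Topology MvPolynomial
open scoped ENNReal

set_option linter.unusedSectionVars false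

noncomputable section

namespace Vale.Agent.P271

variable {n M : ℕ}

theorem analyticAt_aeval {s : E n → E M} {y : E n} (hs : AnalyticAt ℂ s y)
    (P : MvPolynomial (Fin M) ℂ) : AnalyticAt ℂ (fun y => aeval (s y) P) y :=
  .aeval_mvPolynomial (analyticAt_pi_iff.1 hs) P

theorem ift_fderiv (P : MvPolynomial (Fin M) ℂ) (w v : E M) :
    fderiv ℂ (fun w : E M => aeval w P) w v = ∑ j, aeval w (pderiv j P) * v j := by
  have hd : ∀ P : MvPolynomial (Fin M) ℂ, DifferentiableAt ℂ (fun w : E M => aeval w P) w :=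
    fun P => (analyticAt_aeval analyticAt_id P).differentiableAt
  have h : IsDer (aeval w : MvPolynomial (Fin M) ℂ →ₐ[ℂ] ℂ)
      fun P => fderiv ℂ (fun w : E M => aeval w P) w v := ⟨fun a b => by
    simp only [map_add]
    rw [fderiv_fun_add (hd a) (hd b)]
    rfl, fun a b => by
    simp only [map_mul]
    rw [fderiv_fun_mul (hd a) (hd b)]
    rfl, fun c => by simp⟩
  have h1 : ∀ j, fderiv ℂ (fun w : E M => w j) w v = v j := fun j =>
    congrArg (· v) (ContinuousLinearMap.proj (R := ℂ) (φ := fun _ : Fin M => ℂ) j).fderiv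
  simpa only [aeval_X_left_apply, aeval_X, h1, smul_eq_mul] using h.aeval X P

theorem Jac.exists_section (J : Jac n M) {w₀ : E M} (h0 : J.On w₀) (hd : aeval w₀ J.det ≠ 0) :
    ∃ s : E n → E M, AnalyticAt ℂ s (w₀ ∘ J.σ) ∧ s (w₀ ∘ J.σ) = w₀ ∧
      (∀ᶠ y in 𝓝 (w₀ ∘ J.σ), J.On (s y) ∧ s y ∘ J.σ = y) ∧
      ∀ᶠ w in 𝓝 w₀, J.On w → s (w ∘ J.σ) = w := by
  let Φ : E M → E M := fun w k => aeval w (J.G k)
  have hΦ : AnalyticAt ℂ Φ w₀ := analyticAt_pi_iff.2 fun k => analyticAt_aeval analyticAt_id _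
  let B : Matrix (Fin M) (Fin M) ℂ := Matrix.of fun k j => aeval w₀ (pderiv j (J.G k))
  have hB : IsUnit B.det := by
    rw [Jac.det, AlgHom.map_det] at hd
    exact hd.isUnit
  let i : E M ≃L[ℂ] E M := (Matrix.toLinearEquiv (Pi.basisFun ℂ _) B hB).toContinuousLinearEquiv
  have hi : fderiv ℂ Φ w₀ = i := by
    ext v k
    rw [fderiv_pi (φ := fun k (w : E M) => aeval w (J.G k)) fun k =>
      (analyticAt_aeval analyticAt_id (J.G k)).differentiableAt, ContinuousLinearMap.pi_apply,
      ift_fderiv]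
    simp [i, B, Matrix.toLin_eq_toLin', Matrix.mulVec, dotProduct]
  have hs : HasStrictFDerivAt Φ (i : E M →L[ℂ] E M) w₀ := hi ▸ hΦ.hasStrictFDerivAt
  let c := hs.toOpenPartialHomeomorph Φ
  let ex : E n → E M := fun y => Function.extend J.κ y 0
  have h1 : ∀ w, J.On w → ex (w ∘ J.σ) = Φ w := fun w hw => funext fun k => by
    by_cases h : k ∈ range J.κ
    · obtain ⟨j, rfl⟩ := h
      simp [ex, Φ, J.inj.extend_apply, J.Gκ]
    · exact (Function.extend_apply' _ _ _ h).trans (hw k h).symm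
  have h2 : AnalyticAt ℂ ex (w₀ ∘ J.σ) := analyticAt_pi_iff.2 fun k => by
    by_cases h : k ∈ range J.κ
    · obtain ⟨j, rfl⟩ := h
      simp only [ex, J.inj.extend_apply]
      exact analyticAt_pi_iff.1 analyticAt_id j
    · simpa only [ex, Function.extend_apply' _ _ _ h] using analyticAt_const
  have h3 : AnalyticAt ℂ c.symm (ex (w₀ ∘ J.σ)) :=
    h1 w₀ h0 ▸ c.analyticAt_symm' hs.mem_toOpenPartialHomeomorph_source hΦ hi
  refine ⟨fun y => c.symm (ex y), h3.comp h2, ?_, ?_, ?_⟩
  · exact (congrArg c.symm (h1 w₀ h0)).trans hs.localInverse_apply_image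
  · have h4 : Tendsto ex (𝓝 (w₀ ∘ J.σ)) (𝓝 (Φ w₀)) := h1 w₀ h0 ▸ h2.continuousAt
    filter_upwards [h4.eventually hs.eventually_right_inverse] with y hy
    refine ⟨fun k hk => (congrFun hy k).trans (Function.extend_apply' _ _ _ hk), funext fun j => ?_⟩
    have h5 := (congrFun hy (J.κ j)).trans (J.inj.extend_apply _ _ j)
    simp only [Φ, J.Gκ, aeval_X] at h5
    exact h5
  · filter_upwards [hs.eventually_left_inverse] with w hw h
    rw [h1 w h]
    exact hw

theorem exists_ch {Z : Set (E M)} (z : Z) (σ : Fin n → Fin M) {s : E n → E M}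
    (hs : AnalyticAt ℂ s (z.1 ∘ σ)) (h1 : ∀ᶠ y in 𝓝 (z.1 ∘ σ), s y ∈ Z ∧ s y ∘ σ = y)
    (h2 : ∀ᶠ w in 𝓝 z.1, w ∈ Z → s (w ∘ σ) = w) :
    ∃ c : OpenPartialHomeomorph Z (E n), z ∈ c.source ∧ ⇑c = (fun w : Z => w.1 ∘ σ) ∧
      AnalyticAt ℂ (fun y => (c.symm y).1) (z.1 ∘ σ) := by
  classical
  obtain ⟨V, hV, hVo, hz1⟩ := eventually_nhds_iff.1 (hs.eventually_analyticAt.and h1)
  obtain ⟨U, hU, hUo, hz2⟩ := eventually_nhds_iff.1 h2
  let g : E n → Z := fun y => if h : s y ∈ Z then ⟨s y, h⟩ else z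
  have hg : ∀ y ∈ V, (g y).1 = s y := fun y hy => by simp only [g, dif_pos (hV y hy).2.1]
  have hc : ContinuousOn s V := fun y hy => (hV y hy).1.continuousAt.continuousWithinAt
  have hπ : Continuous fun w : Z => w.1 ∘ σ :=
    continuous_pi fun j => (continuous_apply _).comp continuous_subtype_val
  refine ⟨{ toFun := fun w => w.1 ∘ σ
            invFun := g
            source := {w | w.1 ∈ U ∧ w.1 ∘ σ ∈ V}
            target := V ∩ s ⁻¹' U
            map_source' := fun w hw => ⟨hw.2, by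
              rw [mem_preimage, hU _ hw.1 w.2]
              exact hw.1⟩
            map_target' := fun y hy => by
              rw [mem_ofPred_eq, hg y hy.1, (hV y hy.1).2.2]
              exact ⟨hy.2, hy.1⟩
            left_inv' := fun w hw => Subtype.ext ((hg _ hw.2).trans (hU _ hw.1 w.2))
            right_inv' := fun y hy => by rw [hg y hy.1, (hV y hy.1).2.2]
            open_source := (hUo.preimage continuous_subtype_val).inter (hVo.preimage hπ)
            open_target := hc.isOpen_inter_preimage hVo hUo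
            continuousOn_toFun := hπ.continuousOn
            continuousOn_invFun := IsInducing.subtypeVal.continuousOn_iff.2
              ((hc.mono inter_subset_left).congr fun y hy => hg y hy.1) }, ⟨hz2, hz1⟩, rfl, ?_⟩
  exact hs.congr (eventually_of_mem (hVo.mem_nhds hz1) fun y hy => (hg y hy).symm)

end Vale.Agent.P271
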