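import Vale.Agent.P271.Stmt

/-! P271 S/Old: the form of the statement used in the proof, with exterior powers. -/

open MvPolynomial

namespace Vale.Agent.P271

variable {K : Type} [Field K] [Algebra ℂ K] {N : ℕ}

/-- The stalk at `v` of `K_X + m L`, inside the rational `n`-forms, where `e` generates `L` at `v`:
the span over the local ring of the forms `e ^ m • dφ₁ ∧ ⋯ ∧ dφₙ` with `φ i` regular at `v`. -/
noncomputable def adjStalk (t : Fin (N + 1) → K) (n m : ℕ) (v : Fin (N + 1) → ℂ) (e : K) :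
    Submodule (locRing t v) (⋀[K]^n Ω[K⁄ℂ]) :=
  Submodule.span (locRing t v) {η | ∃ φ : Fin n → K, (∀ i, φ i ∈ locRing t v) ∧
    η = e ^ m • exteriorPower.ιMulti K n fun i => KaehlerDifferential.D ℂ K (φ i)}

/-- `η` is a global section of `K_X + m L`. -/
def LineBundle.IsAdjSection {t : Fin (N + 1) → K} (L : LineBundle t) (n m : ℕ)
    (η : ⋀[K]^n Ω[K⁄ℂ]) : Prop :=
  ∀ v, OnX t v → ∀ i, eval v (L.Q i) ≠ 0 → η ∈ adjStalk t n m v (L.e i)

/-- `K_X + m L` is globally generated: at every point some global section generates the stalk. -/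
def LineBundle.AdjFree {t : Fin (N + 1) → K} (L : LineBundle t) (n m : ℕ) : Prop :=
  ∀ v, OnX t v → ∀ i, eval v (L.Q i) ≠ 0 → ∃ η, L.IsAdjSection n m η ∧
    Submodule.span (locRing t v) {η} = adjStalk t n m v (L.e i)

/-- Fujita's freeness conjecture. -/
def Fujita : Prop :=
  ∀ (K : Type) [Field K] [Algebra ℂ K] (N n : ℕ) (t : Fin (N + 1) → K), 1 ≤ n →
    IsFunctionField t → IsSmoothOfDim t n → ∀ (L : LineBundle t) (p : ℕ), 1 ≤ p →
      L.PowIsHyperplane p → ∀ m, n + 1 ≤ m → L.AdjFree n m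

theorem spanOver_image (O : Subalgebra ℂ K) {M : Type} [AddCommGroup M] [Module K M] {n : ℕ}
    (S : Set (⋀[K]^n M)) :
    spanOver O (Subtype.val '' S) = Subtype.val '' (Submodule.span O S : Set (⋀[K]^n M)) := by
  have h := Submodule.map_span ((⋀[K]^n M).subtype.restrictScalars O) S
  exact (congrArg SetLike.coe h).symm

theorem formStalk_eq (t : Fin (N + 1) → K) (n m : ℕ) (v : Fin (N + 1) → ℂ) (e : K) :
    formStalk (KaehlerDifferential.D ℂ K) (locRing t v) n (e ^ m) =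
      Subtype.val '' (adjStalk t n m v e : Set (⋀[K]^n Ω[K⁄ℂ])) := by
  rw [adjStalk, ← spanOver_image, formStalk]
  congr 1
  ext η
  constructor
  · rintro ⟨φ, hφ, rfl⟩
    exact ⟨_, ⟨φ, hφ, rfl⟩, rfl⟩
  · rintro ⟨_, ⟨φ, hφ, rfl⟩, rfl⟩
    exact ⟨φ, hφ, rfl⟩

theorem LineBundle.AdjFree.adjointFree {t : Fin (N + 1) → K} {L : LineBundle t} {n m : ℕ}
    (h : L.AdjFree n m) : L.AdjointFree (KaehlerDifferential.D ℂ K) n m := by
  intro v hv i hi
  obtain ⟨η, h1, h2⟩ := h v hv i hi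
  refine ⟨η, fun w hw j hj => ?_, ?_⟩
  · rw [formStalk_eq]
    exact ⟨η, h1 w hw j hj, rfl⟩
  · rw [formStalk_eq, ← h2, ← spanOver_image, Set.image_singleton]

end Vale.Agent.P271
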