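import Vale.Agent.P271.S.Der
import Vale.Agent.P271.S.Alg
import Vale.Agent.P271.S.IFT
import Vale.Agent.P271.A.Dense

/-! P271 S/OnV: the local section lies on the variety.

Plan. `an_mul_zero`: identity theorem on a ball where both are analytic
(`AnalyticOnNhd.eqOn_zero_of_preconnected_of_eventuallyEq_zero`). `section_on`: `𝔮 = {P | aeval (s y) P = 0 near y₀}`
is a prime ideal of the polynomial ring (`an_mul_zero`); `B = MvPolynomial ⧸ 𝔮` with generators the classes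
`x' i` of `X i` satisfies `J.On x'`, and `aeval x' J.det ≠ 0`. Let `aeval x P = 0` with `P ∉ 𝔮`. By `Jac.dRel` (with
`g = 1`) and `DRel.exists_dvd` there are `q ≠ 0` and `R` with `aeval (X ∘ σ) q - P * R ∈ 𝔮`. `dense_pts` for
`b = aeval (x ∘ σ) q ≠ 0` gives points `w l = ψ l ∘ x → w₀` with `J.On (w l)`, so `w l = s (w l ∘ σ)` and
`ψ l b = aeval (w l) (P * R) = 0` for large `l`, absurd. Uniformity in `P`: identity theorem on a ball on which
`s` is analytic. Auxiliary names start with `onv_`. -/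

open MeasureTheory Set Filter Topology MvPolynomial
open scoped ENNReal

set_option linter.unusedSectionVars false

noncomputable section

namespace Vale.Agent.P271

variable {A : Type} [CommRing A] [IsDomain A] [Algebra ℂ A] {n M : ℕ}

theorem an_mul_zero {f g : E n → ℂ} {y : E n} (hf : AnalyticAt ℂ f y) (hg : AnalyticAt ℂ g y)
    (h : ∀ᶠ w in 𝓝 y, f w * g w = 0) : (∀ᶠ w in 𝓝 y, f w = 0) ∨ ∀ᶠ w in 𝓝 y, g w = 0 := by
  obtain ⟨r, hr, hB⟩ := Metric.eventually_nhds_iff_ball.1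
    (hf.eventually_analyticAt.and (hg.eventually_analyticAt.and h))
  refine or_iff_not_imp_left.2 fun h1 => ?_
  obtain ⟨w, hw, h2⟩ := (not_eventually.1 h1).and_eventually (Metric.ball_mem_nhds y hr) |>.exists
  refine eventually_of_mem (Metric.ball_mem_nhds y hr)
    (AnalyticOnNhd.eqOn_zero_of_preconnected_of_eventuallyEq_zero (fun z hz => (hB z hz).2.1)
      (convex_ball y r).isPreconnected h2 ?_)
  filter_upwards [(hB w h2).1.continuousAt.eventually_ne hw, Metric.isOpen_ball.mem_nhds h2]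
    with z h3 h4
  exact (mul_eq_zero.1 (hB z h4).2.2).resolve_left h3

theorem Jac.section_on (J : Jac n M) {x : Fin M → A} (gen : Algebra.adjoin ℂ (range x) = ⊤)
    (hJ : J.On x) (hy : AlgebraicIndependent ℂ (x ∘ J.σ)) (φ : A →ₐ[ℂ] ℂ) {w₀ : E M}
    (hw : ∀ i, φ (x i) = w₀ i) (hd : aeval w₀ J.det ≠ 0) {s : E n → E M}
    (hs : AnalyticAt ℂ s (w₀ ∘ J.σ)) (h0 : s (w₀ ∘ J.σ) = w₀)
    (h1 : ∀ᶠ y in 𝓝 (w₀ ∘ J.σ), J.On (s y)) (h2 : ∀ᶠ w in 𝓝 w₀, J.On w → s (w ∘ J.σ) = w) :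
    ∀ᶠ y in 𝓝 (w₀ ∘ J.σ), ∀ P : MvPolynomial (Fin M) ℂ, aeval x P = 0 → aeval (s y) P = 0 := by
  let ρ : MvPolynomial (Fin M) ℂ →+* Germ (𝓝 (w₀ ∘ J.σ)) ℂ :=
    (Germ.coeRingHom _).comp (RingHom.pi fun y => (aeval (s y) : _ →ₐ[ℂ] ℂ).toRingHom)
  have hρ : ∀ P, P ∈ RingHom.ker ρ ↔ ∀ᶠ y in 𝓝 (w₀ ∘ J.σ), aeval (s y) P = 0 := fun P =>
    Germ.coe_eq
  have hdet : J.det ∉ RingHom.ker ρ := fun h => hd (h0 ▸ ((hρ _).1 h).self_of_nhds)
  have hp : (RingHom.ker ρ).IsPrime := ⟨fun h => hdet (h ▸ trivial), fun {P Q} h => by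
    rw [hρ, hρ]
    exact an_mul_zero (analyticAt_aeval hs P) (analyticAt_aeval hs Q)
      (by simpa only [map_mul] using (hρ _).1 h)⟩
  let π := Ideal.Quotient.mkₐ ℂ (RingHom.ker ρ)
  have hπ : ∀ P, aeval (fun i => π (X i)) P = π P := fun P => by
    rw [← comp_aeval_apply, aeval_X_left_apply]
  have hd' := J.dRel (x := fun i => π (X i)) (by
      rw [Algebra.adjoin_range_eq_range_aeval, AlgHom.range_eq_top]
      intro b
      obtain ⟨P, rfl⟩ := Ideal.Quotient.mkₐ_surjective ℂ _ b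
      exact ⟨P, hπ P⟩)
    (fun k hk => (hπ _).trans (Ideal.Quotient.eq_zero_iff_mem.2
      ((hρ _).2 (h1.mono fun y hy => hy k hk)))) 1
  have : Algebra.FiniteType ℂ A := ⟨⟨(finite_range x).toFinset, by simpa using gen⟩⟩
  have key : ∀ P, aeval x P = 0 → P ∈ RingHom.ker ρ := fun P hP => by
    by_contra hn
    obtain ⟨q, hq, R, hR⟩ := hd'.exists_dvd (by
      rw [mul_one, hπ]
      exact fun h => hdet (Ideal.Quotient.eq_zero_iff_mem.1 h))
      (b := π P) fun h => hn (Ideal.Quotient.eq_zero_iff_mem.1 h)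
    obtain ⟨R, rfl⟩ := Ideal.Quotient.mkₐ_surjective ℂ _ R
    have h3 : aeval (fun j => X (J.σ j)) q - P * R ∈ RingHom.ker ρ :=
      Ideal.Quotient.eq.1 ((comp_aeval_apply _ π q).trans (hR.trans (map_mul π _ _).symm))
    obtain ⟨ψ, h4, h5⟩ := dense_pts φ (b := aeval (x ∘ J.σ) q) fun h => hq (hy (h.trans
      (map_zero _).symm))
    have h6 : Tendsto (fun l i => ψ l (x i)) atTop (𝓝 w₀) :=
      tendsto_pi_nhds.2 fun i => hw i ▸ h5 (x i)
    have h7 : Tendsto (fun l => (fun i => ψ l (x i)) ∘ J.σ) atTop (𝓝 (w₀ ∘ J.σ)) :=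
      tendsto_pi_nhds.2 fun j => tendsto_pi_nhds.1 h6 _
    obtain ⟨l, h8, h9⟩ := ((h6.eventually h2).and (h7.eventually ((hρ _).1 h3))).exists
    rw [h8 fun k hk => by rw [← comp_aeval_apply, hJ k hk, map_zero], map_sub, map_mul,
      ← comp_aeval_apply x (ψ l) P, hP, map_zero, zero_mul, sub_zero, comp_aeval_apply] at h9
    refine h4 l ?_
    rw [comp_aeval_apply]
    simpa using h9
  obtain ⟨r, hr, hB⟩ := Metric.eventually_nhds_iff_ball.1 hs.eventually_analyticAt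
  filter_upwards [Metric.ball_mem_nhds _ hr] with y hy P hP
  exact AnalyticOnNhd.eqOn_zero_of_preconnected_of_eventuallyEq_zero
    (fun z hz => analyticAt_aeval (hB z hz) P) (convex_ball _ r).isPreconnected
    (Metric.mem_ball_self hr) ((hρ _).1 (key P hP)) hy

end Vale.Agent.P271
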