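import Vale.Agent.P271.S.Reg

/-! P271 S/Serre: global sections of the powers of `L`, and generating sections of
`L ^ (1 + p D)`. -/

open Set MvPolynomial Filter

noncomputable section

namespace Vale.Agent.P271

variable {K : Type} [Field K] [Algebra ℂ K] {N : ℕ} {t : Fin (N + 1) → K} {l : Fin (N + 1)}

/-- Global sections of `L ^ r`. -/
def LineBundle.Sec (L : LineBundle t) (r : ℕ) : Submodule ℂ K where
  carrier := {s | ∀ v, OnX t v → ∀ j, eval v (L.Q j) ≠ 0 → s / L.e j ^ r ∈ locRing t v}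
  add_mem' := fun ha hb v hv j hj => by
    rw [add_div]
    exact add_mem (ha v hv j hj) (hb v hv j hj)
  zero_mem' := fun v _ j _ => by
    rw [zero_div]
    exact zero_mem _
  smul_mem' := fun c s hs v hv j hj => by
    rw [smul_div_assoc]
    exact (locRing t v).smul_mem (hs v hv j hj) c

theorem LineBundle.sec_mul (L : LineBundle t) (r r' : ℕ) :
    L.Sec r * L.Sec r' ≤ L.Sec (r + r') := by
  refine Submodule.mul_le.2 fun a ha b hb v hv j hj => ?_
  rw [pow_add, ← div_mul_div_comm]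
  exact mul_mem (ha v hv j hj) (hb v hv j hj)

theorem LineBundle.sec_pow (L : LineBundle t) (r n : ℕ) : L.Sec r ^ n ≤ L.Sec (r * n) := by
  induction n with
  | zero =>
    rw [pow_zero, Submodule.one_le]
    intro v _ j _
    simp
  | succ n ih =>
    rw [pow_succ, mul_add, mul_one]
    exact (mul_le_mul_left ih _).trans (L.sec_mul _ _)

theorem reg_chart_ev (hl : t l ≠ 0) {Q : MvPolynomial (Fin (N + 1)) ℂ} {d : ℕ}
    (hQ : Q.IsHomogeneous d) {a : K}
    (h : ∀ v, OnX t v → v l ≠ 0 → eval v Q ≠ 0 → a ∈ locRing t v) :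
    ∀ᶠ m in atTop, (aeval t Q / t l ^ d) ^ m * a ∈ chartRing t l := by
  obtain ⟨m, hm⟩ := reg_chart hl hQ h
  refine eventually_atTop.2 ⟨m, fun n hn => ?_⟩
  obtain ⟨j, rfl⟩ := Nat.exists_eq_add_of_le' hn
  rw [pow_add, mul_assoc]
  refine mul_mem (pow_mem ?_ j) hm
  rw [← coe_aeval_homog hQ]
  exact SetLike.coe_mem _

theorem LineBundle.serre (L : LineBundle t) {p : ℕ} {u : K} (hu : u ≠ 0)
    (hL : ∀ v, OnX t v → ∀ i, eval v (L.Q i) ≠ 0 → Submodule.span (locRing t v) {L.e i ^ p} =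
      Submodule.span (locRing t v) (Set.range fun j => u * t j)) :
    ∃ (D : ℕ) (U : Submodule ℂ K), U.FG ∧ U ≤ L.Sec (1 + p * D) ∧ ∀ v, OnX t v →
      ∃ j, eval v (L.Q j) ≠ 0 ∧ ∃ s ∈ U, s ≠ 0 ∧ L.e j ^ (1 + p * D) / s ∈ locRing t v := by
  choose d hd using L.homog
  have h1 : ∀ i j k, ∀ᶠ m in atTop, t k ≠ 0 →
      (aeval t (L.Q i * L.Q j) / t k ^ (d i + d j)) ^ m * (L.e i / L.e j) ∈ chartRing t k := by
    intro i j k
    by_cases hk : t k = 0
    · exact .of_forall fun m h => (h hk).elim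
    · refine (reg_chart_ev hk ((hd i).mul (hd j)) fun v hv _ h => ?_).mono fun m h _ => h
      rw [map_mul, mul_ne_zero_iff] at h
      exact L.compat v hv i j h.1 h.2
  obtain ⟨m, hm⟩ := (eventually_all.2 fun i => eventually_all.2 fun j => eventually_all.2 fun k =>
    h1 i j k).exists
  obtain ⟨δ, hδ⟩ : ∃ δ, ∀ i, d i ≤ δ :=
    ⟨∑ i, d i, fun i => Finset.single_le_sum (fun _ _ => Nat.zero_le _) (Finset.mem_univ i)⟩
  choose f hf using fun i => Nat.exists_eq_add_of_le (hδ i)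
  refine ⟨δ * m, Submodule.span ℂ (range fun q : Fin L.r × Fin (N + 1) =>
    L.e q.1 * (u ^ δ * aeval t (L.Q q.1) * t q.2 ^ f q.1) ^ m), Submodule.fg_span (finite_range _),
    Submodule.span_le.2 ?_, fun v hv => ?_⟩
  · rintro _ ⟨⟨i, k⟩, rfl⟩ v hv j hj
    obtain ⟨a, ha⟩ := hv.exists_ne
    have hta := hv.t_ne ha
    have hQ := hv.aeval_ne (hd j) hj
    have he := L.e_ne j
    have hX := chart_le_locRing hv ha (hm i j a hta)
    have hY := div_mem_locRing hv (isHomogeneous_X_pow a (d j)) (hd j) hj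
    have hZ := hyp_mem1 he (hL v hv j hj) a
    have hW := t_div_mem hv ha k
    rw [map_pow, aeval_X] at hY
    have e1 : u ^ δ * aeval t (L.Q i) * t k ^ f i / (L.e j ^ p) ^ δ =
        aeval t (L.Q i * L.Q j) / t a ^ (d i + d j) * (t a ^ d j / aeval t (L.Q j) *
          (u * t a / L.e j ^ p) ^ δ * (t k / t a) ^ f i) := by
      rw [hf i, map_mul]
      simp only [div_pow, mul_pow, pow_add]
      field_simp
    have e2 : L.e i * (u ^ δ * aeval t (L.Q i) * t k ^ f i) ^ m / L.e j ^ (1 + p * (δ * m)) =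
        (u ^ δ * aeval t (L.Q i) * t k ^ f i / (L.e j ^ p) ^ δ) ^ m * (L.e i / L.e j) := by
      rw [pow_add, pow_one, pow_mul, pow_mul, div_pow, div_mul_div_comm, mul_comm (L.e i),
        mul_comm (L.e j)]
    show L.e i * _ / _ ∈ _
    rw [e2, e1, mul_pow, mul_right_comm]
    exact mul_mem hX (pow_mem (mul_mem (mul_mem hY (pow_mem hZ _)) (pow_mem hW _)) _)
  · obtain ⟨i, hi⟩ := L.cover v hv
    obtain ⟨k, hk⟩ := hv.exists_ne
    have htk := hv.t_ne hk
    have hQ := hv.aeval_ne (hd i) hi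
    have he := L.e_ne i
    refine ⟨i, hi, _, Submodule.subset_span ⟨(i, k), rfl⟩, mul_ne_zero he (pow_ne_zero _
      (mul_ne_zero (mul_ne_zero (pow_ne_zero _ hu) hQ) (pow_ne_zero _ htk))), ?_⟩
    have hY := div_mem_locRing hv (isHomogeneous_X_pow k (d i)) (hd i) hi
    have hZ := hyp_mem2 hv hk hu (hL v hv i hi)
    rw [map_pow, aeval_X] at hY
    have e1 : (L.e i ^ p) ^ δ / (u ^ δ * aeval t (L.Q i) * t k ^ f i) =
        (L.e i ^ p / (u * t k)) ^ δ * (t k ^ d i / aeval t (L.Q i)) := by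
      rw [hf i]
      simp only [div_pow, mul_pow, pow_add]
      field_simp
    show _ / (L.e i * _) ∈ _
    rw [pow_add, pow_one, mul_div_mul_left _ _ he, pow_mul, pow_mul, ← div_pow, e1]
    exact pow_mem (mul_mem (pow_mem hZ _) hY) _

end Vale.Agent.P271
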